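import Vale.Agent.Lib.P359.Defs

/-!
Auxiliary definitions shared by the files of this folder.
-/

namespace Vale.Agent.Lib.P359

open Matrix

/-- the exchange of the two tensor factors of `U_Q ⊗ U_Q` -/
def swapM (Q : ℕ) : Matrix (Pair Q) (Pair Q) ℂ := fun p q => if p = q.swap then 1 else 0

/-- membership in the total-spin-`(Q - 1)` eigenspace of the Casimir operator -/
def InK (Q : ℕ) (v : Pair Q → ℂ) : Prop :=
  casimir Q *ᵥ v = (((Q : ℂ) - 1) * (Q : ℂ)) • v

/-- the part of a pair vector on the level `p.1 + p.2 = s` (total weight `Q - s`) -/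
def lev (Q : ℕ) (s : ℕ) (v : Pair Q → ℂ) : Pair Q → ℂ :=
  fun p => if (p.1 : ℕ) + (p.2 : ℕ) = s then v p else 0

/-- the entrywise properties of the pair projection used in the many-body computation -/
structure PairGood (Q : ℕ) (P : Matrix (Pair Q) (Pair Q) ℂ) (t : ℝ) : Prop where
  herm : Pᴴ = P
  idem : P * P = P
  exch : ∀ p q : Pair Q, P p.swap q.swap = P p q
  anti : ∀ p q : Pair Q, P p q.swap = -P p q
  wt : ∀ p q : Pair Q, P p q ≠ 0 → (p.1 : ℕ) + (p.2 : ℕ) = (q.1 : ℕ) + (q.2 : ℕ)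
  ptr : ∀ b b' : Orb Q, ∑ a, P (a, b) (a, b') = if b = b' then (t : ℂ) else 0

/-- the one-body operator `E_ab` acting on particle `j`: `(E^j_ab ψ)(x) = [x_j = a] ψ(x[j := b])` -/
noncomputable def eop {N Q : ℕ} (j : Fin N) (a b : Orb Q) (ψ : Cfg N Q → ℂ) : Cfg N Q → ℂ :=
  fun x => if x j = a then ψ (Function.update x j b) else 0

/-- second quantisation `dΓ(E_ab) = sum over j of E^j_ab` -/
noncomputable def dG {N Q : ℕ} (a b : Orb Q) (ψ : Cfg N Q → ℂ) : Cfg N Q → ℂ :=
  fun x => ∑ j, eop j a b ψ x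

/-- exchange of the particle labels `i, j` in a wavefunction -/
def swp {N Q : ℕ} (i j : Fin N) (ψ : Cfg N Q → ℂ) : Cfg N Q → ℂ :=
  fun x => ψ (fun l => x (Equiv.swap i j l))

/-- total level of a configuration (total weight is `N Q / 2` minus this) -/
def level {N Q : ℕ} (x : Cfg N Q) : ℕ := ∑ j, (x j : ℕ)

/-- restriction of a wavefunction to the configurations of total level `M` -/
def levN {N Q : ℕ} (M : ℕ) (ψ : Cfg N Q → ℂ) : Cfg N Q → ℂ :=
  fun x => if level x = M then ψ x else 0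

end Vale.Agent.Lib.P359
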