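import Mathlib

/-!
Definitions for the spherical Laughlin Hamiltonian (Haldane `V_1` pseudopotential) at flux `Q`.

One-particle space: `U_Q`, with orthonormal weight basis `e_0, ..., e_Q`
(`e_m` is proportional to `u^(Q-m) v^m`), so vectors are functions `Orb Q → ℂ`.
-/

namespace Vale.Agent.Lib.P359

open Matrix

/-- orbitals `m = 0, ..., Q` of the lowest Landau level on the sphere with `Q` flux quanta -/
abbrev Orb (Q : ℕ) := Fin (Q + 1)

/-- `S^z` of the spin-`Q/2` representation: `S^z e_m = (Q/2 - m) e_m` -/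
noncomputable def Sz (Q : ℕ) : Matrix (Orb Q) (Orb Q) ℂ :=
  Matrix.diagonal fun m => (Q : ℂ) / 2 - ((m : ℕ) : ℂ)

/-- raising operator `S^+`: `S^+ e_(m+1) = sqrt((m+1)(Q-m)) e_m` -/
noncomputable def Sp (Q : ℕ) : Matrix (Orb Q) (Orb Q) ℂ :=
  fun m m' =>
    if (m' : ℕ) = (m : ℕ) + 1 then
      ((Real.sqrt ((((m : ℕ) : ℝ) + 1) * ((Q : ℝ) - ((m : ℕ) : ℝ))) : ℝ) : ℂ)
    else 0

/-- lowering operator `S^- = (S^+)^*` -/
noncomputable def Sm (Q : ℕ) : Matrix (Orb Q) (Orb Q) ℂ := (Sp Q)ᴴ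

/-- index set of the two-particle space `U_Q ⊗ U_Q` -/
abbrev Pair (Q : ℕ) := Orb Q × Orb Q

/-- the operator `A ⊗ 1 + 1 ⊗ A` on `U_Q ⊗ U_Q` -/
noncomputable def pairSum {Q : ℕ} (A : Matrix (Orb Q) (Orb Q) ℂ) :
    Matrix (Pair Q) (Pair Q) ℂ :=
  Matrix.kroneckerMap (fun x y => x * y) A (1 : Matrix (Orb Q) (Orb Q) ℂ) +
    Matrix.kroneckerMap (fun x y => x * y) (1 : Matrix (Orb Q) (Orb Q) ℂ) A

/-- the Casimir operator `J^2 = (J^z)^2 + (J^+ J^- + J^- J^+)/2` of total spin on `U_Q ⊗ U_Q` -/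
noncomputable def casimir (Q : ℕ) : Matrix (Pair Q) (Pair Q) ℂ :=
  pairSum (Sz Q) * pairSum (Sz Q) +
    (1 / 2 : ℂ) • (pairSum (Sp Q) * pairSum (Sm Q) + pairSum (Sm Q) * pairSum (Sp Q))

/-- `P` is the orthogonal projection of `U_Q ⊗ U_Q` onto its component of total spin `Q - 1`,
that is, onto the eigenspace `J^2 = (Q - 1) Q` of the Casimir operator -/
def IsPairProj (Q : ℕ) (P : Matrix (Pair Q) (Pair Q) ℂ) : Prop :=
  Pᴴ = P ∧ P * P = P ∧
    ∀ v : Pair Q → ℂ, P *ᵥ v = v ↔ casimir Q *ᵥ v = (((Q : ℂ) - 1) * (Q : ℂ)) • v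

/-- configurations of `N` labelled particles; wavefunctions are functions `Cfg N Q → ℂ` -/
abbrev Cfg (N Q : ℕ) := Fin N → Orb Q

/-- the pair operator `P_ij`: `P` acting on the tensor factors `i, j` -/
noncomputable def pairOp {N Q : ℕ} (P : Matrix (Pair Q) (Pair Q) ℂ) (i j : Fin N)
    (ψ : Cfg N Q → ℂ) : Cfg N Q → ℂ :=
  fun x => ∑ a, ∑ b, P (x i, x j) (a, b) * ψ (Function.update (Function.update x i a) j b)

/-- the Hamiltonian `H = sum over i < j of P_ij` -/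
noncomputable def ham {N Q : ℕ} (P : Matrix (Pair Q) (Pair Q) ℂ)
    (ψ : Cfg N Q → ℂ) : Cfg N Q → ℂ :=
  fun x => ∑ i, ∑ j, if i < j then pairOp P i j ψ x else 0

/-- fermionic wavefunctions: antisymmetric under every permutation of the particle labels -/
def Antisym {N Q : ℕ} (ψ : Cfg N Q → ℂ) : Prop :=
  ∀ (σ : Equiv.Perm (Fin N)) (x : Cfg N Q),
    ψ (fun i => x (σ i)) = ((Equiv.Perm.sign σ : ℤ) : ℂ) * ψ x

/-- the inner product of two wavefunctions (conjugate-linear in the first argument) -/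
noncomputable def ip {N Q : ℕ} (φ ψ : Cfg N Q → ℂ) : ℂ := ∑ x, star (φ x) * ψ x

end Vale.Agent.Lib.P359
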