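import Vale.Agent.Lib.P359.Basic

namespace Vale.Agent.Lib.P359

open Matrix

theorem exists_pairProj (Q : ℕ) : ∃ P : Matrix (Pair Q) (Pair Q) ℂ, IsPairProj Q P := by
  classical
  obtain ⟨c, hc⟩ : ∃ c : ℂ, c = ((Q : ℂ) - 1) * (Q : ℂ) := ⟨_, rfl⟩
  -- the eigenspace of the Casimir operator, as a subspace of Euclidean space
  let K : Submodule ℂ (EuclideanSpace ℂ (Pair Q)) :=
    LinearMap.ker ((Matrix.toEuclideanCLM (n := Pair Q) (𝕜 := ℂ) (casimir Q) :
      EuclideanSpace ℂ (Pair Q) →ₗ[ℂ] EuclideanSpace ℂ (Pair Q)) - c • LinearMap.id)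
  have hK : ∀ v : Pair Q → ℂ, WithLp.toLp 2 v ∈ K ↔ casimir Q *ᵥ v = c • v := by
    intro v
    rw [LinearMap.mem_ker, LinearMap.sub_apply, sub_eq_zero, LinearMap.smul_apply,
      LinearMap.id_apply, ContinuousLinearMap.coe_coe, Matrix.toEuclideanCLM_toLp,
      ← WithLp.toLp_smul]
    exact (WithLp.toLp_injective 2).eq_iff
  -- the matrix of the orthogonal projection onto the eigenspace
  obtain ⟨P, hP⟩ : ∃ P : Matrix (Pair Q) (Pair Q) ℂ,
      Matrix.toEuclideanCLM (n := Pair Q) (𝕜 := ℂ) P = K.starProjection :=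
    ⟨(Matrix.toEuclideanCLM (n := Pair Q) (𝕜 := ℂ)).symm K.starProjection,
      StarAlgEquiv.apply_symm_apply _ _⟩
  have hinj : Function.Injective (Matrix.toEuclideanCLM (n := Pair Q) (𝕜 := ℂ)) :=
    EquivLike.injective _
  refine ⟨P, ?_, ?_, ?_⟩
  · refine Matrix.isSymmetric_toEuclideanLin_iff.1 ?_
    rw [← Matrix.coe_toEuclideanCLM_eq_toEuclideanLin, hP]
    exact K.starProjection_isSymmetric
  · apply hinj
    rw [map_mul, hP, K.isIdempotentElem_starProjection.eq]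
  · intro v
    have h2 : K.starProjection (WithLp.toLp 2 v) = WithLp.toLp 2 (P *ᵥ v) := by
      rw [← hP]
      exact Matrix.toEuclideanCLM_toLp P v
    rw [← hc, ← hK v, ← Submodule.starProjection_eq_self_iff, h2]
    exact (WithLp.toLp_injective 2).eq_iff.symm

end Vale.Agent.Lib.P359
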