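import Vale.Agent.Lib.P359.Basic

namespace Vale.Agent.Lib.P359

/-- a nonzero antisymmetric wavefunction (Slater determinant of the orbitals `0, ..., N-1`) -/
theorem exists_antisym {N Q : ℕ} (h : N ≤ Q + 1) :
    ∃ ψ : Cfg N Q → ℂ, Antisym ψ ∧ ψ ≠ 0 := by
  refine ⟨fun x => Matrix.det (Matrix.of fun i j : Fin N =>
    if ((x i : Orb Q) : ℕ) = (j : ℕ) then (1 : ℂ) else 0), ?_, ?_⟩
  · intro σ x
    have hM : (Matrix.of fun i j : Fin N =>
        if ((x (σ i) : Orb Q) : ℕ) = (j : ℕ) then (1 : ℂ) else 0) =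
        (Matrix.of fun i j : Fin N =>
          if ((x i : Orb Q) : ℕ) = (j : ℕ) then (1 : ℂ) else 0).submatrix σ id := by
      ext i j
      rfl
    show Matrix.det (Matrix.of fun i j : Fin N =>
        if ((x (σ i) : Orb Q) : ℕ) = (j : ℕ) then (1 : ℂ) else 0) = _
    rw [hM, Matrix.det_permute]
  · intro h0
    have h1 := congrFun h0 (fun i : Fin N => (⟨(i : ℕ), lt_of_lt_of_le i.isLt h⟩ : Orb Q))
    have hone : (Matrix.of fun i j : Fin N =>
        if (((⟨(i : ℕ), lt_of_lt_of_le i.isLt h⟩ : Orb Q)) : ℕ) = (j : ℕ)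
          then (1 : ℂ) else 0) = 1 := by
      ext i j
      simp [Matrix.one_apply, Fin.ext_iff]
    simp only [Pi.zero_apply] at h1
    rw [hone, Matrix.det_one] at h1
    exact one_ne_zero h1

end Vale.Agent.Lib.P359
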