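import Mathlib

namespace Vale.Agent.Lib.P359

/-- a symmetric operator on a nontrivial finite-dimensional complex inner product space has a
unit eigenvector whose eigenvalue bounds the quadratic form from below -/
private lemma min_eigen_aux {F : Type*} [NormedAddCommGroup F] [InnerProductSpace ℂ F]
    [FiniteDimensional ℂ F] [Nontrivial F] (S : F →ₗ[ℂ] F) (hS : S.IsSymmetric) :
    ∃ (E : ℝ) (x₀ : F), ‖x₀‖ = 1 ∧ S x₀ = (E : ℂ) • x₀ ∧
      ∀ z : F, E * ‖z‖ ^ 2 ≤ RCLike.re (inner ℂ (S z) z) := by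
  have hproper : ProperSpace F := FiniteDimensional.proper_rclike ℂ F
  set Sc : F →L[ℂ] F := LinearMap.toContinuousLinearMap S with hSc
  have hre : ∀ z : F, Sc.reApplyInnerSelf z = RCLike.re (inner ℂ (S z) z) := fun z => rfl
  have hSA : IsSelfAdjoint Sc := by
    rw [ContinuousLinearMap.isSelfAdjoint_iff_isSymmetric]
    intro a b
    exact hS a b
  have hne : (Metric.sphere (0 : F) 1).Nonempty :=
    (NormedSpace.sphere_nonempty).mpr zero_le_one
  obtain ⟨x₀, hx₀, hmin⟩ := (isCompact_sphere (0 : F) 1).exists_isMinOn hne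
    Sc.reApplyInnerSelf_continuous.continuousOn
  have hn : ‖x₀‖ = 1 := by simpa using hx₀
  have hx₀ne : x₀ ≠ 0 := by
    intro h
    rw [h, norm_zero] at hn
    exact zero_ne_one hn
  have hextr : IsLocalExtrOn Sc.reApplyInnerSelf (Metric.sphere (0 : F) ‖x₀‖) x₀ := by
    rw [hn]
    exact Or.inl hmin.localize
  have hev := hSA.hasEigenvector_of_isLocalExtrOn hx₀ne hextr
  have hE : Sc.rayleighQuotient x₀ = Sc.reApplyInnerSelf x₀ := by
    simp [ContinuousLinearMap.rayleighQuotient, hn]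
  refine ⟨Sc.rayleighQuotient x₀, x₀, hn, ?_, ?_⟩
  · have h1 := Module.End.mem_eigenspace_iff.mp hev.1
    exact h1
  · intro z
    rw [hE]
    by_cases hz : z = 0
    · subst hz
      simp
    · have hzn : 0 < ‖z‖ := norm_pos_iff.mpr hz
      have hmem : ((‖z‖⁻¹ : ℝ) : ℂ) • z ∈ Metric.sphere (0 : F) 1 := by
        rw [mem_sphere_zero_iff_norm, norm_smul, Complex.norm_real, norm_inv, norm_norm,
          inv_mul_cancel₀ hzn.ne']
      have h1 : Sc.reApplyInnerSelf x₀ ≤ Sc.reApplyInnerSelf (((‖z‖⁻¹ : ℝ) : ℂ) • z) :=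
        hmin hmem
      rw [ContinuousLinearMap.reApplyInnerSelf_smul, Complex.norm_real, norm_inv, norm_norm]
        at h1
      have h2 := mul_le_mul_of_nonneg_right h1 (sq_nonneg ‖z‖)
      have h3 : ‖z‖⁻¹ ^ 2 * Sc.reApplyInnerSelf z * ‖z‖ ^ 2 = Sc.reApplyInnerSelf z := by
        field_simp
      rw [h3, hre z] at h2
      exact h2

/-- the same on an invariant nonzero subspace -/
private lemma min_eigen_sub {F : Type*} [NormedAddCommGroup F] [InnerProductSpace ℂ F]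
    [FiniteDimensional ℂ F] (T' : F →ₗ[ℂ] F) (hT' : T'.IsSymmetric) (W' : Submodule ℂ F)
    (hW' : ∀ a ∈ W', T' a ∈ W') (hne : ∃ a ∈ W', a ≠ 0) :
    ∃ (E : ℝ) (x₀ : F), x₀ ∈ W' ∧ ‖x₀‖ = 1 ∧ T' x₀ = (E : ℂ) • x₀ ∧
      ∀ z ∈ W', E * ‖z‖ ^ 2 ≤ RCLike.re (inner ℂ (T' z) z) := by
  have hS : (T'.restrict hW').IsSymmetric := by
    intro a b
    rw [Submodule.coe_inner, Submodule.coe_inner]
    exact hT' a b
  obtain ⟨u, hu, hu0⟩ := hne
  have hnt : Nontrivial W' := by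
    refine nontrivial_of_ne (⟨u, hu⟩ : W') 0 ?_
    intro h
    exact hu0 (congrArg Subtype.val h)
  obtain ⟨E, x₀, hn, hev, hmin⟩ := min_eigen_aux (T'.restrict hW') hS
  refine ⟨E, x₀, x₀.2, ?_, ?_, ?_⟩
  · rw [← Submodule.coe_norm]
    exact hn
  · have h1 := congrArg Subtype.val hev
    exact h1
  · intro z hz
    have h1 := hmin ⟨z, hz⟩
    rw [Submodule.coe_inner, Submodule.coe_norm] at h1
    exact h1

/-- least eigenvalue of a Hermitian-symmetric linear operator on an invariant nonzero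
subspace of a finite-dimensional function space, in elementary terms -/
theorem min_eigen {ι : Type} [Fintype ι] (T : (ι → ℂ) →ₗ[ℂ] (ι → ℂ))
    (hT : ∀ u v : ι → ℂ, ∑ x, star (T u x) * v x = ∑ x, star (u x) * T v x)
    (W : Submodule ℂ (ι → ℂ)) (hW : ∀ u ∈ W, T u ∈ W) (hne : ∃ u ∈ W, u ≠ 0) :
    ∃ (E : ℝ) (ψ : ι → ℂ), ψ ∈ W ∧ ∑ x, star (ψ x) * ψ x = 1 ∧ T ψ = (E : ℂ) • ψ ∧
      ∀ φ ∈ W, E * (∑ x, star (φ x) * φ x).re ≤ (∑ x, star (φ x) * T φ x).re := by
  classical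
  obtain ⟨e, he⟩ : ∃ e : (ι → ℂ) ≃ₗ[ℂ] EuclideanSpace ℂ ι,
      e = (WithLp.linearEquiv 2 ℂ (ι → ℂ)).symm := ⟨_, rfl⟩
  have hinner : ∀ u v : ι → ℂ, inner ℂ (e u) (e v) = ∑ x, star (u x) * v x := by
    intro u v
    rw [PiLp.inner_apply]
    apply Finset.sum_congr rfl
    intro x _
    simp [he, mul_comm]
  have key : ∀ a b : EuclideanSpace ℂ ι,
      inner ℂ (e (T (e.symm a))) b = inner ℂ a (e (T (e.symm b))) := by
    intro a b
    have ha : e (e.symm a) = a := e.apply_symm_apply a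
    have hb : e (e.symm b) = b := e.apply_symm_apply b
    calc inner ℂ (e (T (e.symm a))) b
        = inner ℂ (e (T (e.symm a))) (e (e.symm b)) := by rw [hb]
      _ = ∑ x, star (T (e.symm a) x) * (e.symm b) x := hinner _ _
      _ = ∑ x, star ((e.symm a) x) * T (e.symm b) x := hT _ _
      _ = inner ℂ (e (e.symm a)) (e (T (e.symm b))) := (hinner _ _).symm
      _ = inner ℂ a (e (T (e.symm b))) := by rw [ha]
  have hsub := min_eigen_sub
    ((e : (ι → ℂ) →ₗ[ℂ] EuclideanSpace ℂ ι) ∘ₗ T ∘ₗ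
      (e.symm : EuclideanSpace ℂ ι →ₗ[ℂ] (ι → ℂ)))
    (fun a b => key a b)
    (W.comap (e.symm : EuclideanSpace ℂ ι →ₗ[ℂ] (ι → ℂ)))
    (fun a ha => by
      show e.symm (e (T (e.symm a))) ∈ W
      rw [LinearEquiv.symm_apply_apply]
      exact hW _ ha)
    (by
      obtain ⟨u, hu, hu0⟩ := hne
      refine ⟨e u, ?_, ?_⟩
      · show e.symm (e u) ∈ W
        rw [LinearEquiv.symm_apply_apply]
        exact hu
      · intro h
        exact hu0 (e.map_eq_zero_iff.mp h))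
  obtain ⟨E, x₀, hx₀W, hn, hev, hmin⟩ := hsub
  have hev' : e (T (e.symm x₀)) = (E : ℂ) • x₀ := hev
  refine ⟨E, e.symm x₀, hx₀W, ?_, ?_, ?_⟩
  · rw [← hinner, LinearEquiv.apply_symm_apply, inner_self_eq_norm_sq_to_K, hn]
    simp
  · have h2 := congrArg e.symm hev'
    rw [LinearEquiv.symm_apply_apply, map_smul] at h2
    exact h2
  · intro φ hφ
    have hmem : e φ ∈ W.comap (e.symm : EuclideanSpace ℂ ι →ₗ[ℂ] (ι → ℂ)) := by
      show e.symm (e φ) ∈ W
      rw [LinearEquiv.symm_apply_apply]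
      exact hφ
    have h1 := hmin (e φ) hmem
    have h3 : RCLike.re (inner ℂ (e (T (e.symm (e φ)))) (e φ))
        = (∑ x, star (φ x) * T φ x).re := by
      rw [LinearEquiv.symm_apply_apply, hinner, hT]
      rfl
    have h4 : ‖e φ‖ ^ 2 = (∑ x, star (φ x) * φ x).re := by
      rw [← inner_self_eq_norm_sq (𝕜 := ℂ), hinner]
      rfl
    rw [← h3, ← h4]
    exact h1

end Vale.Agent.Lib.P359
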