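import Vale.Agent.Lib.P359.Spin

namespace Vale.Agent.Lib.P359

open Matrix

private theorem weights_Jz_mulVec {Q : ℕ} (v : Pair Q → ℂ) (p : Pair Q) :
    (pairSum (Sz Q) *ᵥ v) p = ((Q : ℂ) - ((p.1 : ℕ) : ℂ) - ((p.2 : ℕ) : ℂ)) * v p := by
  simp only [Matrix.mulVec, dotProduct, pairSum_Sz_apply, ite_mul, zero_mul,
    Finset.sum_ite_eq, Finset.mem_univ, if_true]

private theorem weights_Jz_lev {Q : ℕ} (s : ℕ) (v : Pair Q → ℂ)
    (hs : ∀ p : Pair Q, (p.1 : ℕ) + (p.2 : ℕ) ≠ s → v p = 0) :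
    pairSum (Sz Q) *ᵥ v = ((Q : ℂ) - (s : ℂ)) • v := by
  funext p
  rw [weights_Jz_mulVec, Pi.smul_apply, smul_eq_mul]
  by_cases hp : (p.1 : ℕ) + (p.2 : ℕ) = s
  · have h1 : (s : ℂ) = ((p.1 : ℕ) : ℂ) + ((p.2 : ℕ) : ℂ) := by
      rw [← hp]; push_cast; ring
    rw [h1]; ring
  · rw [hs p hp]; ring

private theorem weights_casimir_entry {Q : ℕ} (p q : Pair Q)
    (h : (p.1 : ℕ) + (p.2 : ℕ) ≠ (q.1 : ℕ) + (q.2 : ℕ)) : casimir Q p q = 0 := by
  have h1 := congrFun (congrFun (casimir_comm_Jz Q) p) q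
  simp only [Matrix.mul_apply, pairSum_Sz_apply, mul_ite, mul_zero, ite_mul, zero_mul,
    Finset.sum_ite_eq, Finset.sum_ite_eq', Finset.mem_univ, if_true] at h1
  have h2 : casimir Q p q *
      ((((p.1 : ℕ) : ℂ) + ((p.2 : ℕ) : ℂ)) - (((q.1 : ℕ) : ℂ) + ((q.2 : ℕ) : ℂ))) = 0 := by
    linear_combination h1
  rcases mul_eq_zero.1 h2 with h3 | h3
  · exact h3
  · exfalso
    apply h
    have h4 : ((((p.1 : ℕ) + (p.2 : ℕ) : ℕ)) : ℂ) = ((((q.1 : ℕ) + (q.2 : ℕ) : ℕ)) : ℂ) := by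
      push_cast; linear_combination h3
    exact Nat.cast_injective h4

theorem lev_InK (Q s : ℕ) (v : Pair Q → ℂ) (hv : InK Q v) : InK Q (lev Q s v) := by
  unfold InK at hv ⊢
  funext p
  have hp := congrFun hv p
  simp only [Matrix.mulVec, dotProduct, Pi.smul_apply, smul_eq_mul] at hp ⊢
  by_cases hps : (p.1 : ℕ) + (p.2 : ℕ) = s
  · have h1 : ∑ q, casimir Q p q * lev Q s v q = ∑ q, casimir Q p q * v q := by
      apply Finset.sum_congr rfl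
      intro q _
      by_cases hq : (q.1 : ℕ) + (q.2 : ℕ) = s
      · simp [lev, hq]
      · rw [weights_casimir_entry p q (by omega), zero_mul, zero_mul]
    rw [h1, hp]
    simp [lev, hps]
  · have h1 : ∑ q, casimir Q p q * lev Q s v q = 0 := by
      apply Finset.sum_eq_zero
      intro q _
      by_cases hq : (q.1 : ℕ) + (q.2 : ℕ) = s
      · rw [weights_casimir_entry p q (by omega), zero_mul]
      · simp [lev, hq]
    rw [h1]
    simp [lev, hps]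

private theorem weights_Jp_entry {Q : ℕ} (p q : Pair Q)
    (h : (q.1 : ℕ) + (q.2 : ℕ) ≠ (p.1 : ℕ) + (p.2 : ℕ) + 1) : pairSum (Sp Q) p q = 0 := by
  rw [pairSum_apply]
  have h1 : Sp Q p.1 q.1 * (if p.2 = q.2 then 1 else 0) = 0 := by
    by_cases h2 : p.2 = q.2
    · have h4 : (p.2 : ℕ) = (q.2 : ℕ) := congrArg Fin.val h2
      rw [Sp_eq_zero Q p.1 q.1 (by intro h3; apply h; omega), zero_mul]
    · rw [if_neg h2, mul_zero]
  have h2 : (if p.1 = q.1 then 1 else 0) * Sp Q p.2 q.2 = 0 := by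
    by_cases h2 : p.1 = q.1
    · have h4 : (p.1 : ℕ) = (q.1 : ℕ) := congrArg Fin.val h2
      rw [Sp_eq_zero Q p.2 q.2 (by intro h3; apply h; omega), mul_zero]
    · rw [if_neg h2, zero_mul]
  rw [h1, h2, add_zero]

private theorem weights_Sm_eq_zero {Q : ℕ} (m m' : Orb Q) (h : (m : ℕ) ≠ (m' : ℕ) + 1) :
    Sm Q m m' = 0 := by
  unfold Sm
  rw [Matrix.conjTranspose_apply, Sp_eq_zero Q m' m h, star_zero]

private theorem weights_Jm_entry {Q : ℕ} (p q : Pair Q)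
    (h : (p.1 : ℕ) + (p.2 : ℕ) ≠ (q.1 : ℕ) + (q.2 : ℕ) + 1) : pairSum (Sm Q) p q = 0 := by
  rw [pairSum_apply]
  have h1 : Sm Q p.1 q.1 * (if p.2 = q.2 then 1 else 0) = 0 := by
    by_cases h2 : p.2 = q.2
    · have h4 : (p.2 : ℕ) = (q.2 : ℕ) := congrArg Fin.val h2
      rw [weights_Sm_eq_zero p.1 q.1 (by intro h3; apply h; omega), zero_mul]
    · rw [if_neg h2, mul_zero]
  have h2 : (if p.1 = q.1 then 1 else 0) * Sm Q p.2 q.2 = 0 := by
    by_cases h2 : p.1 = q.1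
    · have h4 : (p.1 : ℕ) = (q.1 : ℕ) := congrArg Fin.val h2
      rw [weights_Sm_eq_zero p.2 q.2 (by intro h3; apply h; omega), mul_zero]
    · rw [if_neg h2, zero_mul]
  rw [h1, h2, add_zero]

private theorem weights_Jp_supp {Q : ℕ} (s : ℕ) (v : Pair Q → ℂ)
    (hs : ∀ p : Pair Q, (p.1 : ℕ) + (p.2 : ℕ) ≠ s → v p = 0) (p : Pair Q)
    (hp : (p.1 : ℕ) + (p.2 : ℕ) + 1 ≠ s) : (pairSum (Sp Q) *ᵥ v) p = 0 := by
  simp only [Matrix.mulVec, dotProduct]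
  apply Finset.sum_eq_zero
  intro q _
  by_cases hq : (q.1 : ℕ) + (q.2 : ℕ) = (p.1 : ℕ) + (p.2 : ℕ) + 1
  · rw [hs q (by omega), mul_zero]
  · rw [weights_Jp_entry p q hq, zero_mul]

private theorem weights_Jm_supp {Q : ℕ} (s : ℕ) (v : Pair Q → ℂ)
    (hs : ∀ p : Pair Q, (p.1 : ℕ) + (p.2 : ℕ) ≠ s → v p = 0) (p : Pair Q)
    (hp : (p.1 : ℕ) + (p.2 : ℕ) ≠ s + 1) : (pairSum (Sm Q) *ᵥ v) p = 0 := by
  simp only [Matrix.mulVec, dotProduct]
  apply Finset.sum_eq_zero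
  intro q _
  by_cases hq : (p.1 : ℕ) + (p.2 : ℕ) = (q.1 : ℕ) + (q.2 : ℕ) + 1
  · rw [hs q (by omega), mul_zero]
  · rw [weights_Jm_entry p q hq, zero_mul]

private theorem weights_InK_comm {Q : ℕ} (M : Matrix (Pair Q) (Pair Q) ℂ)
    (hM : casimir Q * M = M * casimir Q) (v : Pair Q → ℂ) (hv : InK Q v) : InK Q (M *ᵥ v) := by
  unfold InK at hv ⊢
  rw [Matrix.mulVec_mulVec, hM, ← Matrix.mulVec_mulVec, hv, Matrix.mulVec_smul]

private theorem weights_JmJp {Q : ℕ} (s : ℕ) (v : Pair Q → ℂ) (hv : InK Q v)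
    (hs : ∀ p : Pair Q, (p.1 : ℕ) + (p.2 : ℕ) ≠ s → v p = 0) :
    pairSum (Sm Q) *ᵥ (pairSum (Sp Q) *ᵥ v) =
      (((s : ℂ) - 1) * (2 * (Q : ℂ) - (s : ℂ))) • v := by
  have h1 : casimir Q *ᵥ v = (((Q : ℂ) - 1) * (Q : ℂ)) • v := hv
  rw [casimir_eq, Matrix.add_mulVec, Matrix.add_mulVec, ← Matrix.mulVec_mulVec,
    ← Matrix.mulVec_mulVec, weights_Jz_lev s v hs, Matrix.mulVec_smul,
    weights_Jz_lev s v hs] at h1
  funext p
  have h2 := congrFun h1 p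
  simp only [Pi.add_apply, Pi.smul_apply, smul_eq_mul] at h2 ⊢
  linear_combination h2

private theorem weights_JpJm {Q : ℕ} (s : ℕ) (v : Pair Q → ℂ) (hv : InK Q v)
    (hs : ∀ p : Pair Q, (p.1 : ℕ) + (p.2 : ℕ) ≠ s → v p = 0) :
    pairSum (Sp Q) *ᵥ (pairSum (Sm Q) *ᵥ v) =
      (((Q : ℂ) - 1) * (Q : ℂ) - ((Q : ℂ) - (s : ℂ)) * ((Q : ℂ) - (s : ℂ))
        + ((Q : ℂ) - (s : ℂ))) • v := by
  have h1 : casimir Q *ᵥ v = (((Q : ℂ) - 1) * (Q : ℂ)) • v := hv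
  rw [casimir_eq', Matrix.sub_mulVec, Matrix.add_mulVec, ← Matrix.mulVec_mulVec,
    ← Matrix.mulVec_mulVec, weights_Jz_lev s v hs, Matrix.mulVec_smul,
    weights_Jz_lev s v hs] at h1
  funext p
  have h2 := congrFun h1 p
  simp only [Pi.add_apply, Pi.sub_apply, Pi.smul_apply, smul_eq_mul] at h2 ⊢
  linear_combination h2

theorem K_level_zero {Q : ℕ} (hQ : 1 ≤ Q) (s : ℕ) (hs : s = 0 ∨ 2 * Q ≤ s) (v : Pair Q → ℂ)
    (hv : InK Q v) (hsupp : ∀ p : Pair Q, (p.1 : ℕ) + (p.2 : ℕ) ≠ s → v p = 0) : v = 0 := by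
  have hQ' : (Q : ℂ) ≠ 0 := by exact_mod_cast (by omega : Q ≠ 0)
  rcases hs with hs | hs
  · subst hs
    have h0 : pairSum (Sp Q) *ᵥ v = 0 := by
      funext p
      exact weights_Jp_supp 0 v hsupp p (by omega)
    have h1 := weights_JmJp 0 v hv hsupp
    rw [h0, Matrix.mulVec_zero] at h1
    have h2 : (((0 : ℕ) : ℂ) - 1) * (2 * (Q : ℂ) - ((0 : ℕ) : ℂ)) ≠ 0 := by
      intro h
      apply hQ'
      push_cast at h
      linear_combination (-1 / 2 : ℂ) * h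
    exact (smul_eq_zero.1 h1.symm).resolve_left h2
  · by_cases hs2 : s = 2 * Q
    · have h0 : pairSum (Sm Q) *ᵥ v = 0 := by
        funext p
        exact weights_Jm_supp s v hsupp p (by have := p.1.isLt; have := p.2.isLt; omega)
      have h1 := weights_JpJm s v hv hsupp
      rw [h0, Matrix.mulVec_zero] at h1
      have h2 : ((Q : ℂ) - 1) * (Q : ℂ) - ((Q : ℂ) - (s : ℂ)) * ((Q : ℂ) - (s : ℂ))
          + ((Q : ℂ) - (s : ℂ)) ≠ 0 := by
        rw [hs2]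
        push_cast
        intro h
        apply hQ'
        linear_combination (-1 / 2 : ℂ) * h
      exact (smul_eq_zero.1 h1.symm).resolve_left h2
    · funext p
      exact hsupp p (by have := p.1.isLt; have := p.2.isLt; omega)

private theorem weights_level_one {Q : ℕ} (hQ : 1 ≤ Q) (v : Pair Q → ℂ) (hv : InK Q v)
    (hsupp : ∀ p : Pair Q, (p.1 : ℕ) + (p.2 : ℕ) ≠ 1 → v p = 0)
    (a b : Orb Q) (ha : (a : ℕ) = 0) (hb : (b : ℕ) = 1) : v (b, a) = - v (a, b) := by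
  have hab : a ≠ b := by
    intro h
    rw [h] at ha
    omega
  have hw : pairSum (Sp Q) *ᵥ v = 0 :=
    K_level_zero hQ 0 (Or.inl rfl) _ (weights_InK_comm _ (casimir_comm_Jp Q) v hv)
      (fun p hp => weights_Jp_supp 1 v hsupp p (by omega))
  have h00 := congrFun hw (a, a)
  simp only [Matrix.mulVec, dotProduct, Pi.zero_apply] at h00
  rw [Finset.sum_eq_add (b, a) (a, b)] at h00
  · have e1 : pairSum (Sp Q) (a, a) (b, a) = Sp Q a b := by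
      rw [pairSum_apply]; simp [hab]
    have e2 : pairSum (Sp Q) (a, a) (a, b) = Sp Q a b := by
      rw [pairSum_apply]; simp [hab]
    rw [e1, e2] at h00
    have hne : Sp Q a b ≠ 0 := Sp_ne_zero Q a b (by omega)
    apply mul_left_cancel₀ hne
    linear_combination h00
  · intro h
    exact hab (congrArg Prod.fst h).symm
  · intro c _ hc
    by_cases hc1 : (c.1 : ℕ) + (c.2 : ℕ) = 1
    · exfalso
      have h3 : ((c.1 : ℕ) = 1 ∧ (c.2 : ℕ) = 0) ∨ ((c.1 : ℕ) = 0 ∧ (c.2 : ℕ) = 1) := by omega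
      rcases h3 with ⟨h4, h5⟩ | ⟨h4, h5⟩
      · exact hc.1 (Prod.ext (Fin.ext (by rw [h4, hb])) (Fin.ext (by rw [h5, ha])))
      · exact hc.2 (Prod.ext (Fin.ext (by rw [h4, ha])) (Fin.ext (by rw [h5, hb])))
    · rw [hsupp c hc1, mul_zero]
  · intro h; exact absurd (Finset.mem_univ _) h
  · intro h; exact absurd (Finset.mem_univ _) h

private theorem weights_pow {Q : ℕ} (k : ℕ) : ∀ v : Pair Q → ℂ, InK Q v → k + 2 ≤ 2 * Q →
    (∀ p : Pair Q, (p.1 : ℕ) + (p.2 : ℕ) ≠ k + 1 → v p = 0) →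
    InK Q (pairSum (Sp Q) ^ k *ᵥ v) ∧
    (∀ p : Pair Q, (p.1 : ℕ) + (p.2 : ℕ) ≠ 1 → (pairSum (Sp Q) ^ k *ᵥ v) p = 0) ∧
    (pairSum (Sp Q) ^ k *ᵥ v = 0 → v = 0) := by
  induction k with
  | zero =>
    intro v hv _ hs
    rw [pow_zero, Matrix.one_mulVec]
    exact ⟨hv, fun p hp => hs p (by omega), fun h => h⟩
  | succ k ih =>
    intro v hv hk hs
    have hw : InK Q (pairSum (Sp Q) *ᵥ v) := weights_InK_comm _ (casimir_comm_Jp Q) v hv
    have hws : ∀ p : Pair Q, (p.1 : ℕ) + (p.2 : ℕ) ≠ k + 1 → (pairSum (Sp Q) *ᵥ v) p = 0 :=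
      fun p hp => weights_Jp_supp (k + 1 + 1) v hs p (by omega)
    obtain ⟨h1, h2, h3⟩ := ih _ hw (by omega) hws
    rw [pow_succ, ← Matrix.mulVec_mulVec]
    refine ⟨h1, h2, fun h => ?_⟩
    have h4 := h3 h
    have h5 := weights_JmJp (k + 1 + 1) v hv hs
    rw [h4, Matrix.mulVec_zero] at h5
    have h6 : (((k + 1 + 1 : ℕ) : ℂ) - 1) * (2 * (Q : ℂ) - ((k + 1 + 1 : ℕ) : ℂ)) ≠ 0 := by
      apply mul_ne_zero
      · intro h7
        have h8 : ((k + 1 : ℕ) : ℂ) = ((0 : ℕ) : ℂ) := by push_cast; push_cast at h7; linear_combination h7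
        have h9 := Nat.cast_injective h8
        omega
      · intro h7
        have h8 : ((2 * Q : ℕ) : ℂ) = ((k + 1 + 1 : ℕ) : ℂ) := by
          push_cast; push_cast at h7; linear_combination h7
        have h9 := Nat.cast_injective h8
        omega
    exact (smul_eq_zero.1 h5.symm).resolve_left h6

private theorem weights_vanish {Q : ℕ} (hQ : 1 ≤ Q) (k : ℕ) (hk : k + 2 ≤ 2 * Q)
    (v : Pair Q → ℂ) (hv : InK Q v)
    (hs : ∀ p : Pair Q, (p.1 : ℕ) + (p.2 : ℕ) ≠ k + 1 → v p = 0)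
    (a b : Orb Q) (ha : (a : ℕ) = 0) (hb : (b : ℕ) = 1)
    (h0 : (pairSum (Sp Q) ^ k *ᵥ v) (a, b) = 0) : v = 0 := by
  obtain ⟨h1, h2, h3⟩ := weights_pow k v hv hk hs
  apply h3
  have h4 := weights_level_one hQ _ h1 h2 a b ha hb
  rw [h0, neg_zero] at h4
  funext p
  by_cases hp : (p.1 : ℕ) + (p.2 : ℕ) = 1
  · have h5 : ((p.1 : ℕ) = 1 ∧ (p.2 : ℕ) = 0) ∨ ((p.1 : ℕ) = 0 ∧ (p.2 : ℕ) = 1) := by omega
    rcases h5 with ⟨h6, h7⟩ | ⟨h6, h7⟩
    · have h8 : p = (b, a) := Prod.ext (Fin.ext (by rw [h6, hb])) (Fin.ext (by rw [h7, ha]))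
      rw [h8, h4]; rfl
    · have h8 : p = (a, b) := Prod.ext (Fin.ext (by rw [h6, ha])) (Fin.ext (by rw [h7, hb]))
      rw [h8, h0]; rfl
  · rw [h2 p hp]; rfl

theorem K_level_functional {Q : ℕ} (hQ : 1 ≤ Q) (s : ℕ) :
    ∃ ℓ : (Pair Q → ℂ) →ₗ[ℂ] ℂ, ∀ v : Pair Q → ℂ, InK Q v →
      (∀ p : Pair Q, (p.1 : ℕ) + (p.2 : ℕ) ≠ s → v p = 0) → ℓ v = 0 → v = 0 := by
  by_cases hs : s = 0 ∨ 2 * Q ≤ s
  · exact ⟨0, fun v hv hsupp _ => K_level_zero hQ s hs v hv hsupp⟩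
  · obtain ⟨k, rfl⟩ : ∃ k, s = k + 1 := ⟨s - 1, by omega⟩
    refine ⟨(LinearMap.proj ((⟨0, by omega⟩, ⟨1, by omega⟩) : Pair Q)).comp
      (Matrix.mulVecLin (pairSum (Sp Q) ^ k)), ?_⟩
    intro v hv hsupp h0
    exact weights_vanish hQ k (by omega) v hv hsupp ⟨0, by omega⟩ ⟨1, by omega⟩ rfl rfl h0

theorem K_antisym {Q : ℕ} (hQ : 1 ≤ Q) (v : Pair Q → ℂ) (hv : InK Q v) (p : Pair Q) :
    v p.swap = -v p := by
  have hu : InK Q (v + swapM Q *ᵥ v) := by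
    have h1 := weights_InK_comm _ (casimir_comm_swap Q) v hv
    unfold InK at hv h1 ⊢
    rw [Matrix.mulVec_add, hv, h1, smul_add]
  have hsym : swapM Q *ᵥ (v + swapM Q *ᵥ v) = v + swapM Q *ᵥ v := by
    rw [Matrix.mulVec_add, Matrix.mulVec_mulVec, swapM_mul_self, Matrix.one_mulVec, add_comm]
  have key : ∀ s : ℕ, lev Q s (v + swapM Q *ᵥ v) = 0 := by
    intro s
    have hK := lev_InK Q s _ hu
    have hsupp : ∀ q : Pair Q, (q.1 : ℕ) + (q.2 : ℕ) ≠ s →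
        lev Q s (v + swapM Q *ᵥ v) q = 0 := by
      intro q hq
      exact if_neg hq
    by_cases hs : s = 0 ∨ 2 * Q ≤ s
    · exact K_level_zero hQ s hs _ hK hsupp
    · obtain ⟨k, rfl⟩ : ∃ k, s = k + 1 := ⟨s - 1, by omega⟩
      have hsym2 : swapM Q *ᵥ lev Q (k + 1) (v + swapM Q *ᵥ v) =
          lev Q (k + 1) (v + swapM Q *ᵥ v) := by
        funext q
        rw [swapM_mulVec]
        have h1 := congrFun hsym q
        rw [swapM_mulVec] at h1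
        have e : ((q.swap.1 : ℕ) + (q.swap.2 : ℕ) = k + 1) ↔
            ((q.1 : ℕ) + (q.2 : ℕ) = k + 1) := by
          rw [Prod.fst_swap, Prod.snd_swap, add_comm]
        simp only [lev]
        rw [h1]
        exact if_congr e rfl rfl
      have hcomm : swapM Q * pairSum (Sp Q) ^ k = pairSum (Sp Q) ^ k * swapM Q :=
        (Commute.pow_right (show Commute (swapM Q) (pairSum (Sp Q)) from
          swapM_pairSum (Sp Q)) k).eq
      obtain ⟨h1, h2, -⟩ := weights_pow k _ hK (by omega) hsupp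
      have hw : swapM Q *ᵥ (pairSum (Sp Q) ^ k *ᵥ lev Q (k + 1) (v + swapM Q *ᵥ v)) =
          pairSum (Sp Q) ^ k *ᵥ lev Q (k + 1) (v + swapM Q *ᵥ v) := by
        rw [Matrix.mulVec_mulVec, hcomm, ← Matrix.mulVec_mulVec, hsym2]
      have h4 := weights_level_one hQ _ h1 h2 ⟨0, by omega⟩ ⟨1, by omega⟩ rfl rfl
      have h5 := congrFun hw (⟨0, by omega⟩, ⟨1, by omega⟩)
      rw [swapM_mulVec] at h5
      have h6 : (pairSum (Sp Q) ^ k *ᵥ lev Q (k + 1) (v + swapM Q *ᵥ v))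
          (⟨0, by omega⟩, ⟨1, by omega⟩) = 0 := by
        have h7 := h5.symm.trans h4
        linear_combination (1 / 2 : ℂ) * h7
      exact weights_vanish hQ k (by omega) _ hK hsupp ⟨0, by omega⟩ ⟨1, by omega⟩ rfl rfl h6
  have h1 := congrFun (key ((p.1 : ℕ) + (p.2 : ℕ))) p
  rw [show lev Q ((p.1 : ℕ) + (p.2 : ℕ)) (v + swapM Q *ᵥ v) p = (v + swapM Q *ᵥ v) p
    from if_pos rfl] at h1
  rw [Pi.add_apply, swapM_mulVec, Pi.zero_apply] at h1
  linear_combination h1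

end Vale.Agent.Lib.P359
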