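import Vale.Agent.Lib.P359.ProjComm
import Vale.Agent.Lib.P359.Weights

namespace Vale.Agent.Lib.P359

open Matrix

private theorem Trace_inK_smul {Q : ℕ} (c : ℂ) {v : Pair Q → ℂ} (hv : InK Q v) :
    InK Q (c • v) := by
  unfold InK at *
  rw [Matrix.mulVec_smul, hv, smul_comm]

private theorem Trace_inK_sub {Q : ℕ} {v w : Pair Q → ℂ} (hv : InK Q v) (hw : InK Q w) :
    InK Q (v - w) := by
  unfold InK at *
  rw [Matrix.mulVec_sub, hv, hw, smul_sub]

private theorem Trace_col {Q : ℕ} (P : Matrix (Pair Q) (Pair Q) ℂ) (q : Pair Q) :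
    P *ᵥ Pi.single q 1 = fun p => P p q := by
  rw [Matrix.mulVec_single_one]
  rfl

/-- the columns of `P` cut down to level `s` -/
private def Trace_u {Q : ℕ} (P : Matrix (Pair Q) (Pair Q) ℂ) (s : ℕ) (q : Pair Q) : Pair Q → ℂ :=
  lev Q s (fun p => P p q)

private theorem Trace_u_apply {Q : ℕ} (P : Matrix (Pair Q) (Pair Q) ℂ) (s : ℕ) (q p : Pair Q) :
    Trace_u P s q p = if (p.1 : ℕ) + (p.2 : ℕ) = s then P p q else 0 := rfl

private theorem Trace_u_inK {Q : ℕ} {P : Matrix (Pair Q) (Pair Q) ℂ} (hP : IsPairProj Q P)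
    (s : ℕ) (q : Pair Q) : InK Q (Trace_u P s q) := by
  unfold Trace_u
  rw [← Trace_col]
  exact lev_InK Q s _ (P_mem hP _)

private theorem Trace_u_supp {Q : ℕ} (P : Matrix (Pair Q) (Pair Q) ℂ) (s : ℕ) (q p : Pair Q)
    (h : (p.1 : ℕ) + (p.2 : ℕ) ≠ s) : Trace_u P s q p = 0 := by
  rw [Trace_u_apply, if_neg h]

/-- the trace of `P` on level `s` -/
private noncomputable def Trace_c {Q : ℕ} (P : Matrix (Pair Q) (Pair Q) ℂ) (s : ℕ) : ℂ :=
  ∑ p : Pair Q, Trace_u P s p p

private theorem Trace_c_zero_of_u {Q : ℕ} (P : Matrix (Pair Q) (Pair Q) ℂ) (s : ℕ)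
    (h : ∀ q, Trace_u P s q = 0) : Trace_c P s = 0 := by
  unfold Trace_c
  apply Finset.sum_eq_zero
  intro p _
  rw [h p]
  rfl

private theorem Trace_c_edge {Q : ℕ} (hQ : 1 ≤ Q) {P : Matrix (Pair Q) (Pair Q) ℂ}
    (hP : IsPairProj Q P) (s : ℕ) (hs : s = 0 ∨ 2 * Q ≤ s) : Trace_c P s = 0 := by
  apply Trace_c_zero_of_u
  intro q
  exact K_level_zero hQ s hs _ (Trace_u_inK hP s q) (fun p hp => Trace_u_supp P s q p hp)

private theorem Trace_c_zero_or_one {Q : ℕ} (hQ : 1 ≤ Q) {P : Matrix (Pair Q) (Pair Q) ℂ}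
    (hP : IsPairProj Q P) (s : ℕ) : Trace_c P s = 0 ∨ Trace_c P s = 1 := by
  obtain ⟨ℓ, hℓ⟩ := K_level_functional hQ s
  by_cases hall : ∀ q, ℓ (Trace_u P s q) = 0
  · left
    apply Trace_c_zero_of_u
    intro q
    exact hℓ _ (Trace_u_inK hP s q) (fun p hp => Trace_u_supp P s q p hp) (hall q)
  · right
    rw [not_forall] at hall
    obtain ⟨q₀, hq₀⟩ := hall
    set w : Pair Q → ℂ := (ℓ (Trace_u P s q₀))⁻¹ • Trace_u P s q₀ with hw
    have hwK : InK Q w := Trace_inK_smul _ (Trace_u_inK hP s q₀)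
    have hwsupp : ∀ p : Pair Q, (p.1 : ℕ) + (p.2 : ℕ) ≠ s → w p = 0 := by
      intro p hp
      rw [hw, Pi.smul_apply, Trace_u_supp P s q₀ p hp, smul_zero]
    have hw1 : ℓ w = 1 := by
      rw [hw, map_smul, smul_eq_mul, inv_mul_cancel₀ hq₀]
    have hcol : ∀ q, Trace_u P s q = ℓ (Trace_u P s q) • w := by
      intro q
      have h0 := hℓ (Trace_u P s q - ℓ (Trace_u P s q) • w)
        (Trace_inK_sub (Trace_u_inK hP s q) (Trace_inK_smul _ hwK))
        (fun p hp => by
          rw [Pi.sub_apply, Pi.smul_apply, Trace_u_supp P s q p hp, hwsupp p hp, smul_zero,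
            sub_zero])
        (by rw [map_sub, map_smul, hw1, smul_eq_mul, mul_one, sub_self])
      exact sub_eq_zero.1 h0
    have hPw : P *ᵥ w = w := P_fix hP w hwK
    have hexp : w = ∑ q, w q • Trace_u P s q := by
      funext p
      rw [Finset.sum_apply]
      simp only [Pi.smul_apply, Trace_u_apply, smul_eq_mul]
      by_cases hp : (p.1 : ℕ) + (p.2 : ℕ) = s
      · simp only [hp, if_true]
        have := congrFun hPw p
        rw [← this]
        simp only [Matrix.mulVec, dotProduct]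
        apply Finset.sum_congr rfl
        intro q _
        ring
      · simp only [hp, if_false, mul_zero, Finset.sum_const_zero]
        exact hwsupp p hp
    have hℓw : ℓ w = ∑ q, w q * ℓ (Trace_u P s q) := by
      conv_lhs => rw [hexp]
      rw [map_sum]
      apply Finset.sum_congr rfl
      intro q _
      rw [map_smul, smul_eq_mul]
    unfold Trace_c
    rw [← hw1, hℓw]
    apply Finset.sum_congr rfl
    intro p _
    have := congrFun (hcol p) p
    rw [this, Pi.smul_apply, smul_eq_mul, mul_comm]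

private theorem Trace_trace_eq {Q : ℕ} {P : Matrix (Pair Q) (Pair Q) ℂ} :
    P.trace = ∑ s ∈ Finset.range (2 * Q + 1), Trace_c P s := by
  unfold Trace_c
  rw [Finset.sum_comm]
  unfold Matrix.trace
  apply Finset.sum_congr rfl
  intro p _
  simp only [Trace_u_apply, Matrix.diag_apply]
  rw [Finset.sum_ite_eq]
  have hp1 : (p.1 : ℕ) ≤ Q := Nat.lt_succ_iff.1 p.1.isLt
  have hp2 : (p.2 : ℕ) ≤ Q := Nat.lt_succ_iff.1 p.2.isLt
  rw [if_pos (Finset.mem_range.2 (by omega))]

private theorem Trace_trace_nat {Q : ℕ} (hQ : 1 ≤ Q) {P : Matrix (Pair Q) (Pair Q) ℂ}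
    (hP : IsPairProj Q P) : ∃ n : ℕ, n + 1 ≤ 2 * Q ∧ P.trace = (n : ℂ) := by
  classical
  refine ⟨((Finset.range (2 * Q + 1)).filter (fun s => Trace_c P s = 1)).card, ?_, ?_⟩
  · have hsub : (Finset.range (2 * Q + 1)).filter (fun s => Trace_c P s = 1)
        ⊆ Finset.Ioo 0 (2 * Q) := by
      intro s hs
      rw [Finset.mem_filter, Finset.mem_range] at hs
      rw [Finset.mem_Ioo]
      have h0 : s ≠ 0 := by
        intro h
        have := Trace_c_edge hQ hP s (Or.inl h)
        rw [hs.2] at this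
        exact one_ne_zero this
      have h1 : ¬ 2 * Q ≤ s := by
        intro h
        have := Trace_c_edge hQ hP s (Or.inr h)
        rw [hs.2] at this
        exact one_ne_zero this
      omega
    have hcard := Finset.card_le_card hsub
    rw [Nat.card_Ioo] at hcard
    omega
  · rw [Trace_trace_eq, Finset.card_filter]
    push_cast
    apply Finset.sum_congr rfl
    intro s _
    rcases Trace_c_zero_or_one hQ hP s with h | h
    · rw [h]; simp
    · rw [h]; simp

/-- the trace of `P` over the first tensor factor only -/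
private noncomputable def Trace_T {Q : ℕ} (P : Matrix (Pair Q) (Pair Q) ℂ) :
    Matrix (Orb Q) (Orb Q) ℂ :=
  fun b b' => ∑ a, P (a, b) (a, b')

private theorem Trace_left {Q : ℕ} (S : Matrix (Orb Q) (Orb Q) ℂ)
    (P : Matrix (Pair Q) (Pair Q) ℂ) (a b : Orb Q) (q : Pair Q) :
    (pairSum S * P) (a, b) q = ∑ c, S a c * P (c, b) q + ∑ d, S b d * P (a, d) q := by
  rw [Matrix.mul_apply, Fintype.sum_prod_type]
  simp only [pairSum_apply, add_mul, Finset.sum_add_distrib]
  congr 1
  · apply Finset.sum_congr rfl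
    intro c _
    simp [mul_ite, ite_mul]
  · rw [Finset.sum_comm]
    apply Finset.sum_congr rfl
    intro d _
    simp [ite_mul]

private theorem Trace_right {Q : ℕ} (S : Matrix (Orb Q) (Orb Q) ℂ)
    (P : Matrix (Pair Q) (Pair Q) ℂ) (p : Pair Q) (a' b' : Orb Q) :
    (P * pairSum S) p (a', b') = ∑ c, P p (c, b') * S c a' + ∑ d, P p (a', d) * S d b' := by
  rw [Matrix.mul_apply, Fintype.sum_prod_type]
  simp only [pairSum_apply, mul_add, Finset.sum_add_distrib]
  congr 1
  · apply Finset.sum_congr rfl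
    intro c _
    simp [mul_ite]
  · rw [Finset.sum_comm]
    apply Finset.sum_congr rfl
    intro d _
    simp [mul_ite, ite_mul]

private theorem Trace_schur {Q : ℕ} (S : Matrix (Orb Q) (Orb Q) ℂ)
    (P : Matrix (Pair Q) (Pair Q) ℂ) (h : pairSum S * P = P * pairSum S) :
    S * Trace_T P = Trace_T P * S := by
  ext b b'
  have h1 : ∑ a, (pairSum S * P) (a, b) (a, b') = ∑ a, (P * pairSum S) (a, b) (a, b') := by
    rw [h]
  simp only [Trace_left, Trace_right, Finset.sum_add_distrib] at h1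
  have e1 : ∑ a, ∑ c, S a c * P (c, b) (a, b') = ∑ a, ∑ c, P (a, b) (c, b') * S c a := by
    rw [Finset.sum_comm]
    apply Finset.sum_congr rfl
    intro c _
    apply Finset.sum_congr rfl
    intro a _
    ring
  have e2 : ∑ a, ∑ d, S b d * P (a, d) (a, b') = (S * Trace_T P) b b' := by
    rw [Matrix.mul_apply, Finset.sum_comm]
    apply Finset.sum_congr rfl
    intro d _
    unfold Trace_T
    rw [Finset.mul_sum]
  have e3 : ∑ a, ∑ d, P (a, b) (a, d) * S d b' = (Trace_T P * S) b b' := by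
    rw [Matrix.mul_apply, Finset.sum_comm]
    apply Finset.sum_congr rfl
    intro d _
    unfold Trace_T
    rw [Finset.sum_mul]
  rw [e1, e2, e3] at h1
  exact add_left_cancel h1

private theorem Trace_T_offdiag {Q : ℕ} {P : Matrix (Pair Q) (Pair Q) ℂ} (hP : IsPairProj Q P)
    (b b' : Orb Q) (hbb : b ≠ b') : Trace_T P b b' = 0 := by
  have h := Trace_schur (Sz Q) P (P_comm_Jz hP)
  have h1 := congrFun (congrFun h b) b'
  unfold Sz at h1
  rw [Matrix.diagonal_mul, Matrix.mul_diagonal] at h1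
  have hne : ((b : ℕ) : ℂ) ≠ ((b' : ℕ) : ℂ) := by
    intro heq
    exact hbb (Fin.ext (Nat.cast_injective heq))
  have h0 : (((b' : ℕ) : ℂ) - ((b : ℕ) : ℂ)) * Trace_T P b b' = 0 := by
    linear_combination h1
  rcases mul_eq_zero.1 h0 with h2 | h2
  · exact absurd (sub_eq_zero.1 h2).symm hne
  · exact h2

private theorem Trace_T_step {Q : ℕ} {P : Matrix (Pair Q) (Pair Q) ℂ} (hP : IsPairProj Q P)
    (m m' : Orb Q) (h : (m' : ℕ) = (m : ℕ) + 1) : Trace_T P m' m' = Trace_T P m m := by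
  have hs := Trace_schur (Sp Q) P (P_comm_Jp hP)
  have h1 := congrFun (congrFun hs m) m'
  rw [Matrix.mul_apply, Matrix.mul_apply] at h1
  rw [Finset.sum_eq_single m' (fun d _ hd => by rw [Trace_T_offdiag hP d m' hd, mul_zero])
      (fun h => absurd (Finset.mem_univ _) h),
    Finset.sum_eq_single m (fun d _ hd => by rw [Trace_T_offdiag hP m d (Ne.symm hd), zero_mul])
      (fun h => absurd (Finset.mem_univ _) h)] at h1
  have hne := Sp_ne_zero Q m m' h
  have h0 : Sp Q m m' * (Trace_T P m' m' - Trace_T P m m) = 0 := by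
    linear_combination h1
  rcases mul_eq_zero.1 h0 with h2 | h2
  · exact absurd h2 hne
  · exact sub_eq_zero.1 h2

private theorem Trace_T_diag {Q : ℕ} {P : Matrix (Pair Q) (Pair Q) ℂ} (hP : IsPairProj Q P)
    (b : Orb Q) : Trace_T P b b = Trace_T P 0 0 := by
  obtain ⟨n, hn⟩ := b
  induction n with
  | zero => rfl
  | succ n ih =>
    have hn' : n < Q + 1 := by omega
    rw [Trace_T_step hP ⟨n, hn'⟩ ⟨n + 1, hn⟩ rfl]
    exact ih hn'

private theorem Trace_T_trace {Q : ℕ} (P : Matrix (Pair Q) (Pair Q) ℂ) :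
    ∑ b, Trace_T P b b = P.trace := by
  unfold Matrix.trace Trace_T
  rw [Fintype.sum_prod_type, Finset.sum_comm]
  rfl

theorem pairGood_of_isPairProj {Q : ℕ} (hQ : 1 ≤ Q) {P : Matrix (Pair Q) (Pair Q) ℂ}
    (hP : IsPairProj Q P) :
    ∃ t : ℝ, 0 ≤ t ∧ t * ((Q : ℝ) + 1) ≤ 2 * (Q : ℝ) - 1 ∧ PairGood Q P t := by
  obtain ⟨n, hn, htr⟩ := Trace_trace_nat hQ hP
  have hQpos : (0 : ℝ) < (Q : ℝ) + 1 := by positivity
  refine ⟨(n : ℝ) / ((Q : ℝ) + 1), by positivity, ?_, ?_⟩
  · rw [div_mul_cancel₀ _ hQpos.ne']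
    have h1 : ((n + 1 : ℕ) : ℝ) ≤ ((2 * Q : ℕ) : ℝ) := by exact_mod_cast hn
    push_cast at h1
    linarith
  · have hτ : Trace_T P 0 0 = (((n : ℝ) / ((Q : ℝ) + 1) : ℝ) : ℂ) := by
      have hsum : ∑ b : Orb Q, Trace_T P b b = ((Q : ℂ) + 1) * Trace_T P 0 0 := by
        rw [Finset.sum_congr rfl (fun b _ => Trace_T_diag hP b), Finset.sum_const,
          Finset.card_univ, Fintype.card_fin, nsmul_eq_mul]
        push_cast
        ring
      rw [Trace_T_trace, htr] at hsum
      have hQ1 : ((Q : ℂ) + 1) ≠ 0 := by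
        have h2 : ((Q + 1 : ℕ) : ℂ) ≠ 0 := Nat.cast_ne_zero.2 (Nat.succ_ne_zero Q)
        push_cast at h2
        exact h2
      push_cast
      rw [eq_div_iff hQ1, mul_comm]
      exact hsum.symm
    refine ⟨hP.1, hP.2.1, P_exchange hP, ?_, P_weight hP, ?_⟩
    · intro p q
      have h := K_antisym hQ (P *ᵥ Pi.single q 1) (P_mem hP _) p
      rw [Trace_col] at h
      have h' : P p.swap q = -P p q := h
      have hex := P_exchange hP p.swap q
      rw [Prod.swap_swap] at hex
      rw [hex, h']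
    · intro b b'
      show Trace_T P b b' = _
      by_cases hbb : b = b'
      · subst hbb
        rw [if_pos rfl, Trace_T_diag hP b, hτ]
      · rw [if_neg hbb, Trace_T_offdiag hP b b' hbb]

end Vale.Agent.Lib.P359
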