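import Vale.Agent.Lib.P359.SumRule
import Vale.Agent.Lib.P359.Trace
import Vale.Agent.Lib.P359.Exists
import Vale.Agent.Lib.P359.Spectral
import Vale.Agent.Lib.P359.Slater

/-!
Assembly: the two lowest eigenvalues of the Hamiltonian on antisymmetric wavefunctions and
the uniform upper bound on their difference.
-/

namespace Vale.Agent.Lib.P359

open Matrix

variable {N Q : ℕ}

/-- the Hamiltonian as a linear map -/
noncomputable def hamL (P : Matrix (Pair Q) (Pair Q) ℂ) :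
    (Cfg N Q → ℂ) →ₗ[ℂ] (Cfg N Q → ℂ) where
  toFun := ham P
  map_add' := ham_add P
  map_smul' := fun c ψ => by
    simp only [RingHom.id_apply]
    exact ham_smul P c ψ

/-- the antisymmetric subspace -/
def antiSub (N Q : ℕ) : Submodule ℂ (Cfg N Q → ℂ) where
  carrier := {ψ | Antisym ψ}
  add_mem' := fun h1 h2 => antisym_add h1 h2
  zero_mem' := antisym_zero
  smul_mem' := fun c _ h => antisym_smul c h

/-- antisymmetric vectors orthogonal to a given vector -/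
def orthSub (ψ0 : Cfg N Q → ℂ) : Submodule ℂ (Cfg N Q → ℂ) where
  carrier := {φ | Antisym φ ∧ ip ψ0 φ = 0}
  add_mem' := fun h1 h2 => ⟨antisym_add h1.1 h2.1, by
    rw [ip_add_right, h1.2, h2.2, add_zero]⟩
  zero_mem' := ⟨antisym_zero, by simp [ip]⟩
  smul_mem' := fun c _ h => ⟨antisym_smul c h.1, by
    rw [ip_smul_right, h.2, mul_zero]⟩

theorem levN_smul (M : ℕ) (c : ℂ) (ψ : Cfg N Q → ℂ) : levN M (c • ψ) = c • levN M ψ := by
  funext x
  simp only [levN, Pi.smul_apply, smul_eq_mul]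
  split_ifs <;> simp

theorem ip_self_eq (ψ : Cfg N Q → ℂ) : ip ψ ψ = (((ip ψ ψ).re : ℝ) : ℂ) := by
  rw [ip_self, Complex.ofReal_re]

/-- normalisation of a nonzero vector -/
theorem exists_normalize {ψ : Cfg N Q → ℂ} (h : ψ ≠ 0) :
    ∃ c : ℂ, c ≠ 0 ∧ ip (c • ψ) (c • ψ) = 1 := by
  have hpos := ip_self_re_pos ψ h
  set r : ℝ := (ip ψ ψ).re with hr
  refine ⟨((1 / Real.sqrt r : ℝ) : ℂ), ?_, ?_⟩
  · have : (1 / Real.sqrt r : ℝ) ≠ 0 := by
      have := Real.sqrt_pos.mpr hpos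
      positivity
    exact_mod_cast this
  · rw [ip_smul_right, ip_smul_left, ip_self_eq ψ, ← hr]
    have h1 : star ((1 / Real.sqrt r : ℝ) : ℂ) = ((1 / Real.sqrt r : ℝ) : ℂ) :=
      Complex.conj_ofReal _
    rw [h1]
    have h2 : (1 / Real.sqrt r) * ((1 / Real.sqrt r) * r) = 1 := by
      have hs := Real.sqrt_pos.mpr hpos
      have hsq : Real.sqrt r * Real.sqrt r = r := Real.mul_self_sqrt hpos.le
      field_simp
      nlinarith [hsq]
    exact_mod_cast h2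

theorem hamL_apply (P : Matrix (Pair Q) (Pair Q) ℂ) (ψ : Cfg N Q → ℂ) :
    hamL P ψ = ham P ψ := rfl

theorem ip_zero_right (φ : Cfg N Q → ℂ) : ip φ (0 : Cfg N Q → ℂ) = 0 := by
  simp [ip]

/-- the two lowest eigenvalues on antisymmetric wavefunctions and the sum-rule bound on
their difference, for a pair matrix with the entrywise properties `PairGood` -/
theorem gap_general (hN : 2 ≤ N) (hNQ : N ≤ Q) {P : Matrix (Pair Q) (Pair Q) ℂ} {t : ℝ}
    (hP : PairGood Q P t) :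
    ∃ (E0 E1 : ℝ) (ψ0 ψ1 : Cfg N Q → ℂ),
      Antisym ψ0 ∧ Antisym ψ1 ∧ ip ψ0 ψ0 = 1 ∧ ip ψ1 ψ1 = 1 ∧ ip ψ0 ψ1 = 0 ∧
      ham P ψ0 = (E0 : ℂ) • ψ0 ∧ ham P ψ1 = (E1 : ℂ) • ψ1 ∧
      (∀ φ : Cfg N Q → ℂ, Antisym φ → E0 * (ip φ φ).re ≤ (ip φ (ham P φ)).re) ∧
      (∀ φ : Cfg N Q → ℂ, Antisym φ → ip ψ0 φ = 0 →
        E1 * (ip φ φ).re ≤ (ip φ (ham P φ)).re) ∧
      E0 ≤ E1 ∧ (E1 - E0) * ((Q : ℝ) + 1 - N) ≤ 2 * ((N : ℝ) - 1) * t := by
  have hsymm : ∀ u v : Cfg N Q → ℂ,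
      ∑ x, star (hamL P u x) * v x = ∑ x, star (u x) * hamL P v x :=
    fun u v => ham_symm hP.herm u v
  -- the least eigenvalue on the antisymmetric subspace
  obtain ⟨ψs, hψs, hψs0⟩ := exists_antisym (N := N) (Q := Q) (by omega)
  obtain ⟨E0, ψ, hψW, hψn, hψE, hmin0⟩ := min_eigen (hamL P) hsymm (antiSub N Q)
    (fun u hu => antisym_ham hP.exch hu) ⟨ψs, hψs, hψs0⟩
  have hmin0' : ∀ φ : Cfg N Q → ℂ, Antisym φ → E0 * (ip φ φ).re ≤ (ip φ (ham P φ)).re :=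
    fun φ hφ => hmin0 φ hφ
  have hψne : ψ ≠ 0 := by
    intro h
    rw [h] at hψn
    simp at hψn
  -- a ground vector on a single level
  obtain ⟨M, hM⟩ := exists_levN_ne_zero hψne
  obtain ⟨c, hc0, hcn⟩ := exists_normalize hM
  set ψ0 : Cfg N Q → ℂ := c • levN M ψ with hψ0
  have hψ0A : Antisym ψ0 := antisym_smul c (antisym_levN hψW M)
  have hψ0E : ham P ψ0 = (E0 : ℂ) • ψ0 := by
    have h1 : ham P ψ = (E0 : ℂ) • ψ := hψE
    rw [hψ0, ham_smul, ham_levN hP.wt, h1, levN_smul, smul_comm]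
  have hψ0supp : ∀ x, ψ0 x ≠ 0 → level x = M := by
    intro x hx
    apply levN_support M ψ x
    intro h0
    apply hx
    rw [hψ0, Pi.smul_apply, h0, smul_zero]
  -- the second eigenvalue
  have horth : ∀ a b : Orb Q, a ≠ b → dG a b ψ0 ∈ orthSub ψ0 :=
    fun a b hab => ⟨antisym_dG hψ0A a b, weight_orth M hψ0supp a b hab⟩
  have hN1 : 1 ≤ N := by omega
  let i0 : Fin N := ⟨0, by omega⟩
  have hi0 : ∀ k : Fin N, i0 ≤ k := fun k => Nat.zero_le _
  have hnorm := norm_rule i0 hψ0A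
  have hpauli := pauli_rule hψ0A
  rw [hcn, mul_one] at hnorm hpauli
  -- total squared norm of the off-diagonal trial vectors
  have hoff : ∑ a : Orb Q, ∑ b : Orb Q,
      (if a = b then 0 else (ip (dG a b ψ0) (dG a b ψ0)).re)
        = N * ((Q : ℝ) + 1 - N) := by
    have h1 : ∀ a : Orb Q, ∑ b : Orb Q,
        (if a = b then 0 else (ip (dG a b ψ0) (dG a b ψ0)).re)
          = ∑ b : Orb Q, (ip (dG a b ψ0) (dG a b ψ0)).re
            - (ip (dG a a ψ0) (dG a a ψ0)).re := by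
      intro a
      rw [← Finset.add_sum_erase Finset.univ (fun b => (ip (dG a b ψ0) (dG a b ψ0)).re)
        (Finset.mem_univ a), add_sub_cancel_left,
        ← Finset.add_sum_erase Finset.univ _ (Finset.mem_univ a), if_pos rfl, zero_add]
      refine Finset.sum_congr rfl fun b hb => ?_
      rw [if_neg (Ne.symm (Finset.ne_of_mem_erase hb))]
    simp only [h1, Finset.sum_sub_distrib]
    have h2 : ∑ a : Orb Q, ∑ b : Orb Q, (ip (dG a b ψ0) (dG a b ψ0)).re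
        = N * ((Q : ℝ) + 2 - N) := by
      have := congrArg Complex.re hnorm
      simp only [Complex.re_sum] at this
      rw [this]
      have e : (N : ℂ) * ((Q : ℂ) + 2 - N) = ((N * ((Q : ℝ) + 2 - N) : ℝ) : ℂ) := by
        push_cast
        ring
      rw [e, Complex.ofReal_re]
    have h3 : ∑ a : Orb Q, (ip (dG a a ψ0) (dG a a ψ0)).re = N := by
      have := congrArg Complex.re hpauli
      simp only [Complex.re_sum] at this
      rw [this]
      simp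
    rw [h2, h3]
    ring
  have hoffpos : 0 < (N : ℝ) * ((Q : ℝ) + 1 - N) := by
    have h1 : (0 : ℝ) < N := by exact_mod_cast (by omega : 0 < N)
    have h2 : (N : ℝ) ≤ Q := by exact_mod_cast hNQ
    have h3 : (0 : ℝ) < (Q : ℝ) + 1 - N := by linarith
    positivity
  have hex : ∃ a b : Orb Q, a ≠ b ∧ dG a b ψ0 ≠ 0 := by
    by_contra hcon
    push Not at hcon
    have : ∑ a : Orb Q, ∑ b : Orb Q,
        (if a = b then 0 else (ip (dG a b ψ0) (dG a b ψ0)).re) = 0 := by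
      refine Finset.sum_eq_zero fun a _ => Finset.sum_eq_zero fun b _ => ?_
      by_cases hab : a = b
      · rw [if_pos hab]
      · rw [if_neg hab, hcon a b hab]
        simp [ip]
    rw [hoff] at this
    linarith
  obtain ⟨a1, b1, hab1, hχ1⟩ := hex
  have hinv1 : ∀ u ∈ orthSub ψ0, hamL P u ∈ orthSub ψ0 := by
    intro u hu
    refine ⟨antisym_ham hP.exch hu.1, ?_⟩
    rw [hamL_apply, ← ham_symm hP.herm, hψ0E, ip_smul_left, hu.2, mul_zero]
  obtain ⟨E1, ψ1, hψ1W, hψ1n, hψ1E, hmin1⟩ := min_eigen (hamL P) hsymm (orthSub ψ0)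
    hinv1 ⟨dG a1 b1 ψ0, horth a1 b1 hab1, hχ1⟩
  have hmin1' : ∀ φ : Cfg N Q → ℂ, Antisym φ → ip ψ0 φ = 0 →
      E1 * (ip φ φ).re ≤ (ip φ (ham P φ)).re :=
    fun φ hφ h0 => hmin1 φ ⟨hφ, h0⟩
  have hψ1E' : ham P ψ1 = (E1 : ℂ) • ψ1 := hψ1E
  have hψ1n' : ip ψ1 ψ1 = 1 := hψ1n
  -- E0 ≤ E1
  have hle : E0 ≤ E1 := by
    have h := hmin0' ψ1 hψ1W.1
    rw [hψ1E', ip_smul_right, hψ1n'] at h
    simpa using h
  -- the sum rule
  have hsr := sum_rule hP i0 hi0 (by omega) hψ0A E0 hψ0E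
  rw [hcn] at hsr
  have hlow : (E1 - E0) * (N * ((Q : ℝ) + 1 - N))
      ≤ ∑ a : Orb Q, ∑ b : Orb Q, ((ip (dG a b ψ0) (ham P (dG a b ψ0))).re
        - E0 * (ip (dG a b ψ0) (dG a b ψ0)).re) := by
    rw [← hoff, Finset.mul_sum]
    refine Finset.sum_le_sum fun a _ => ?_
    rw [Finset.mul_sum]
    refine Finset.sum_le_sum fun b _ => ?_
    by_cases hab : a = b
    · rw [if_pos hab, mul_zero]
      have := hmin0' (dG a b ψ0) (antisym_dG hψ0A a b)
      linarith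
    · rw [if_neg hab]
      have := hmin1' (dG a b ψ0) (antisym_dG hψ0A a b) (horth a b hab).2
      linarith
  refine ⟨E0, E1, ψ0, ψ1, hψ0A, hψ1W.1, hcn, hψ1n', hψ1W.2, hψ0E, hψ1E', hmin0', hmin1',
    hle, ?_⟩
  have hNpos : (0 : ℝ) < N := by exact_mod_cast (by omega : 0 < N)
  have hfin : (E1 - E0) * (N * ((Q : ℝ) + 1 - N)) ≤ 2 * N * (N - 1) * t * (1 : ℂ).re :=
    le_trans hlow hsr
  rw [Complex.one_re, mul_one] at hfin
  have : N * ((E1 - E0) * ((Q : ℝ) + 1 - N)) ≤ N * (2 * ((N : ℝ) - 1) * t) := by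
    nlinarith [hfin]
  exact le_of_mul_le_mul_left this hNpos

end Vale.Agent.Lib.P359
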