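import Vale.Agent.Lib.P359.Basic

namespace Vale.Agent.Lib.P359

open Matrix

variable {N Q : ℕ}

/-! ### inner product -/

theorem ip_add_right (φ ψ χ : Cfg N Q → ℂ) : ip φ (ψ + χ) = ip φ ψ + ip φ χ := by
  simp only [ip, Pi.add_apply, mul_add, Finset.sum_add_distrib]

theorem ip_add_left (φ ψ χ : Cfg N Q → ℂ) : ip (φ + ψ) χ = ip φ χ + ip ψ χ := by
  simp only [ip, Pi.add_apply, star_add, add_mul, Finset.sum_add_distrib]

theorem ip_smul_right (c : ℂ) (φ ψ : Cfg N Q → ℂ) : ip φ (c • ψ) = c * ip φ ψ := by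
  simp only [ip, Pi.smul_apply, smul_eq_mul, Finset.mul_sum]
  refine Finset.sum_congr rfl fun x _ => by ring

theorem ip_smul_left (c : ℂ) (φ ψ : Cfg N Q → ℂ) : ip (c • φ) ψ = star c * ip φ ψ := by
  simp only [ip, Pi.smul_apply, smul_eq_mul, star_mul', Finset.mul_sum]
  refine Finset.sum_congr rfl fun x _ => by ring

theorem ip_neg_right (φ ψ : Cfg N Q → ℂ) : ip φ (-ψ) = -ip φ ψ := by
  simp only [ip, Pi.neg_apply, mul_neg, Finset.sum_neg_distrib]

theorem ip_sum_right {ι : Type} (s : Finset ι) (φ : Cfg N Q → ℂ) (f : ι → Cfg N Q → ℂ) :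
    ip φ (fun x => ∑ i ∈ s, f i x) = ∑ i ∈ s, ip φ (f i) := by
  simp only [ip, Finset.mul_sum]
  rw [Finset.sum_comm]

theorem ip_sum_left {ι : Type} (s : Finset ι) (f : ι → Cfg N Q → ℂ) (ψ : Cfg N Q → ℂ) :
    ip (fun x => ∑ i ∈ s, f i x) ψ = ∑ i ∈ s, ip (f i) ψ := by
  simp only [ip, star_sum, Finset.sum_mul]
  rw [Finset.sum_comm]

theorem ip_conj (φ ψ : Cfg N Q → ℂ) : star (ip φ ψ) = ip ψ φ := by
  simp only [ip, star_sum, star_mul', star_star]
  refine Finset.sum_congr rfl fun x _ => by ring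

theorem ip_self (ψ : Cfg N Q → ℂ) : ip ψ ψ = ((∑ x, ‖ψ x‖ ^ 2 : ℝ) : ℂ) := by
  simp only [ip]
  rw [Complex.ofReal_sum]
  refine Finset.sum_congr rfl fun x _ => ?_
  rw [Complex.ofReal_pow, ← Complex.conj_mul']
  rfl

theorem ip_self_re_nonneg (ψ : Cfg N Q → ℂ) : 0 ≤ (ip ψ ψ).re := by
  rw [ip_self, Complex.ofReal_re]
  exact Finset.sum_nonneg fun x _ => by positivity

theorem ip_self_re_pos (ψ : Cfg N Q → ℂ) (h : ψ ≠ 0) : 0 < (ip ψ ψ).re := by
  rw [ip_self, Complex.ofReal_re]
  obtain ⟨x, hx⟩ := Function.ne_iff.mp h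
  have hx' : ψ x ≠ 0 := hx
  exact Finset.sum_pos' (fun y _ => by positivity)
    ⟨x, Finset.mem_univ x, pow_pos (norm_pos_iff.mpr hx') 2⟩

/-! ### antisymmetric wavefunctions -/

theorem antisym_swp {ψ : Cfg N Q → ℂ} (hψ : Antisym ψ) (i j : Fin N) (hij : i ≠ j) :
    swp i j ψ = -ψ := by
  funext x
  have h := hψ (Equiv.swap i j) x
  rw [Equiv.Perm.sign_swap hij] at h
  simp only [swp, Pi.neg_apply]
  rw [h]
  simp

theorem antisym_eq_zero {ψ : Cfg N Q → ℂ} (hψ : Antisym ψ) (x : Cfg N Q) (i j : Fin N)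
    (hij : i ≠ j) (h : x i = x j) : ψ x = 0 := by
  have hx : (fun l => x (Equiv.swap i j l)) = x := by
    funext l
    by_cases h1 : l = i
    · subst h1
      rw [Equiv.swap_apply_left]
      exact h.symm
    · by_cases h2 : l = j
      · subst h2
        rw [Equiv.swap_apply_right]
        exact h
      · rw [Equiv.swap_apply_of_ne_of_ne h1 h2]
  have h0 := hψ (Equiv.swap i j) x
  rw [hx, Equiv.Perm.sign_swap hij] at h0
  have h3 : (((-1 : ℤˣ) : ℤ) : ℂ) = -1 := by simp
  rw [h3] at h0
  have h4 : (2 : ℂ) * ψ x = 0 := by linear_combination h0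
  exact (mul_eq_zero.mp h4).resolve_left two_ne_zero

theorem antisym_add {φ ψ : Cfg N Q → ℂ} (hφ : Antisym φ) (hψ : Antisym ψ) :
    Antisym (φ + ψ) := by
  intro σ x
  simp only [Pi.add_apply]
  rw [hφ σ x, hψ σ x]
  ring

theorem antisym_smul (c : ℂ) {ψ : Cfg N Q → ℂ} (hψ : Antisym ψ) : Antisym (c • ψ) := by
  intro σ x
  simp only [Pi.smul_apply, smul_eq_mul]
  rw [hψ σ x]
  ring

theorem antisym_zero : Antisym (0 : Cfg N Q → ℂ) := by
  intro σ x
  simp

theorem antisym_dG {ψ : Cfg N Q → ℂ} (hψ : Antisym ψ) (a b : Orb Q) :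
    Antisym (dG a b ψ) := by
  intro σ x
  simp only [dG, eop]
  have key : ∀ j : Fin N, Function.update (fun i => x (σ i)) j b
      = fun i => (Function.update x (σ j) b) (σ i) := by
    intro j
    funext l
    by_cases hl : l = j
    · subst hl
      simp
    · have : σ l ≠ σ j := fun h => hl (σ.injective h)
      simp [Function.update_of_ne hl, Function.update_of_ne this]
  rw [Finset.mul_sum]
  refine Fintype.sum_equiv σ _ _ (fun j => ?_)
  rw [key j, hψ σ (Function.update x (σ j) b)]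
  split_ifs <;> simp

theorem antisym_levN {ψ : Cfg N Q → ℂ} (hψ : Antisym ψ) (M : ℕ) : Antisym (levN M ψ) := by
  intro σ x
  have hl : level (fun i => x (σ i)) = level x := by
    simp only [level]
    exact Equiv.sum_comp σ (fun j => ((x j : ℕ)))
  simp only [levN, hl]
  rw [hψ σ x]
  split_ifs <;> simp

private def cfgSwap (i j : Fin N) : Cfg N Q ≃ Cfg N Q where
  toFun x := fun l => x (Equiv.swap i j l)
  invFun x := fun l => x (Equiv.swap i j l)
  left_inv x := by
    funext l
    simp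
  right_inv x := by
    funext l
    simp

theorem ip_swp (i j : Fin N) (φ ψ : Cfg N Q → ℂ) : ip (swp i j φ) ψ = ip φ (swp i j ψ) := by
  simp only [ip, swp]
  refine Fintype.sum_equiv (cfgSwap i j) _ _ (fun x => ?_)
  simp [cfgSwap]

/-! ### the Hamiltonian -/

theorem pairOp_add (P : Matrix (Pair Q) (Pair Q) ℂ) (i j : Fin N) (φ ψ : Cfg N Q → ℂ) :
    pairOp P i j (φ + ψ) = pairOp P i j φ + pairOp P i j ψ := by
  funext x
  simp only [pairOp, Pi.add_apply, mul_add, Finset.sum_add_distrib]

theorem pairOp_smul (P : Matrix (Pair Q) (Pair Q) ℂ) (i j : Fin N) (c : ℂ)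
    (ψ : Cfg N Q → ℂ) : pairOp P i j (c • ψ) = c • pairOp P i j ψ := by
  funext x
  simp only [pairOp, Pi.smul_apply, smul_eq_mul, Finset.mul_sum]
  refine Finset.sum_congr rfl fun a _ => Finset.sum_congr rfl fun b _ => by ring

theorem ham_add (P : Matrix (Pair Q) (Pair Q) ℂ) (φ ψ : Cfg N Q → ℂ) :
    ham P (φ + ψ) = ham P φ + ham P ψ := by
  funext x
  simp only [ham, pairOp_add, Pi.add_apply, ← Finset.sum_add_distrib]
  refine Finset.sum_congr rfl fun i _ => Finset.sum_congr rfl fun j _ => ?_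
  split_ifs <;> simp

theorem ham_smul (P : Matrix (Pair Q) (Pair Q) ℂ) (c : ℂ) (ψ : Cfg N Q → ℂ) :
    ham P (c • ψ) = c • ham P ψ := by
  funext x
  simp only [ham, pairOp_smul, Pi.smul_apply, smul_eq_mul, Finset.mul_sum]
  refine Finset.sum_congr rfl fun i _ => Finset.sum_congr rfl fun j _ => ?_
  split_ifs <;> simp

theorem ham_eq_sum (P : Matrix (Pair Q) (Pair Q) ℂ) (ψ : Cfg N Q → ℂ) :
    ham P ψ = fun x => ∑ i, ∑ j, if i < j then pairOp P i j ψ x else 0 := rfl

private theorem pairOp_relabel (P : Matrix (Pair Q) (Pair Q) ℂ) {ψ : Cfg N Q → ℂ}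
    (hψ : Antisym ψ) (σ : Equiv.Perm (Fin N)) (i j : Fin N) (x : Cfg N Q) :
    pairOp P i j ψ (fun l => x (σ l))
      = ((Equiv.Perm.sign σ : ℤ) : ℂ) * pairOp P (σ i) (σ j) ψ x := by
  simp only [pairOp]
  rw [Finset.mul_sum]
  refine Finset.sum_congr rfl fun a _ => ?_
  rw [Finset.mul_sum]
  refine Finset.sum_congr rfl fun b _ => ?_
  have key : Function.update (Function.update (fun l => x (σ l)) i a) j b
      = fun l => (Function.update (Function.update x (σ i) a) (σ j) b) (σ l) := by
    funext l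
    by_cases hl : l = j
    · subst hl
      simp
    · have h1 : σ l ≠ σ j := fun h => hl (σ.injective h)
      by_cases hl' : l = i
      · subst hl'
        simp [Function.update_of_ne hl, Function.update_of_ne h1]
      · have h2 : σ l ≠ σ i := fun h => hl' (σ.injective h)
        simp [Function.update_of_ne hl, Function.update_of_ne hl', Function.update_of_ne h1,
          Function.update_of_ne h2]
  rw [key, hψ σ]
  ring

private theorem pairOp_swap_idx {P : Matrix (Pair Q) (Pair Q) ℂ}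
    (hex : ∀ p q : Pair Q, P p.swap q.swap = P p q) (i j : Fin N) (hij : i ≠ j)
    (ψ : Cfg N Q → ℂ) (x : Cfg N Q) : pairOp P j i ψ x = pairOp P i j ψ x := by
  simp only [pairOp]
  rw [Finset.sum_comm]
  refine Finset.sum_congr rfl fun a _ => Finset.sum_congr rfl fun b _ => ?_
  have h := hex (x i, x j) (a, b)
  simp only [Prod.swap_prod_mk] at h
  rw [h, Function.update_comm hij.symm b a x]

private theorem sum_lt_double (G : Fin N → Fin N → ℂ) (hG : ∀ i j, i ≠ j → G i j = G j i) :
    (2 : ℂ) * ∑ i, ∑ j, (if i < j then G i j else 0)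
      = ∑ i, ∑ j, if i ≠ j then G i j else 0 := by
  have h1 : ∑ i, ∑ j, (if i < j then G i j else 0)
      = ∑ i, ∑ j, (if j < i then G i j else 0) := by
    rw [Finset.sum_comm]
    refine Finset.sum_congr rfl fun i _ => Finset.sum_congr rfl fun j _ => ?_
    split_ifs with h
    · exact hG j i (ne_of_lt h)
    · rfl
  have h2 : (2 : ℂ) * ∑ i, ∑ j, (if i < j then G i j else 0)
      = ∑ i, ∑ j, (if i < j then G i j else 0) + ∑ i, ∑ j, (if j < i then G i j else 0) := by
    rw [two_mul]
    exact congrArg (fun z => (∑ i, ∑ j, (if i < j then G i j else 0)) + z) h1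
  rw [h2, ← Finset.sum_add_distrib]
  refine Finset.sum_congr rfl fun i _ => ?_
  rw [← Finset.sum_add_distrib]
  refine Finset.sum_congr rfl fun j _ => ?_
  rcases lt_trichotomy i j with h | h | h
  · simp [h, ne_of_lt h, not_lt_of_gt h]
  · simp [h]
  · simp [h, (ne_of_lt h).symm, not_lt_of_gt h]

private theorem sum_ne_reindex (G : Fin N → Fin N → ℂ) (σ : Equiv.Perm (Fin N)) :
    ∑ i, ∑ j, (if i ≠ j then G (σ i) (σ j) else 0) = ∑ i, ∑ j, if i ≠ j then G i j else 0 := by
  refine Fintype.sum_equiv σ _ _ (fun i => ?_)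
  refine Fintype.sum_equiv σ _ _ (fun j => ?_)
  by_cases h : i = j
  · subst h
    simp
  · have : σ i ≠ σ j := fun h' => h (σ.injective h')
    simp [h, this]

theorem antisym_ham {P : Matrix (Pair Q) (Pair Q) ℂ}
    (hex : ∀ p q : Pair Q, P p.swap q.swap = P p q) {ψ : Cfg N Q → ℂ} (hψ : Antisym ψ) :
    Antisym (ham P ψ) := by
  intro σ x
  simp only [ham]
  have hL : ∀ i j : Fin N, (if i < j then pairOp P i j ψ (fun l => x (σ l)) else 0)
      = ((Equiv.Perm.sign σ : ℤ) : ℂ) * (if i < j then pairOp P (σ i) (σ j) ψ x else 0) := by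
    intro i j
    rw [pairOp_relabel P hψ σ i j x]
    split_ifs <;> simp
  simp only [hL, ← Finset.mul_sum]
  congr 1
  have hG : ∀ i j : Fin N, i ≠ j → pairOp P i j ψ x = pairOp P j i ψ x :=
    fun i j hij => (pairOp_swap_idx hex i j hij ψ x).symm
  have e1 : (2 : ℂ) * ∑ i, ∑ j, (if i < j then pairOp P (σ i) (σ j) ψ x else 0)
      = ∑ i, ∑ j, if i ≠ j then pairOp P (σ i) (σ j) ψ x else 0 :=
    sum_lt_double (fun i j => pairOp P (σ i) (σ j) ψ x)
      (fun i j hij => hG _ _ (fun h => hij (σ.injective h)))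
  have e2 : (2 : ℂ) * ∑ i, ∑ j, (if i < j then pairOp P i j ψ x else 0)
      = ∑ i, ∑ j, if i ≠ j then pairOp P i j ψ x else 0 :=
    sum_lt_double (fun i j => pairOp P i j ψ x) hG
  have e3 : ∑ i, ∑ j, (if i ≠ j then pairOp P (σ i) (σ j) ψ x else 0)
      = ∑ i, ∑ j, if i ≠ j then pairOp P i j ψ x else 0 :=
    sum_ne_reindex (fun i j => pairOp P i j ψ x) σ
  apply mul_left_cancel₀ (two_ne_zero : (2 : ℂ) ≠ 0)
  rw [e1, e2]
  exact e3

private def tripInv (i j : Fin N) :
    (Cfg N Q × Orb Q × Orb Q) → (Cfg N Q × Orb Q × Orb Q) :=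
  fun t => (Function.update (Function.update t.1 i t.2.1) j t.2.2, t.1 i, t.1 j)

private theorem upd_i (x : Cfg N Q) (i j : Fin N) (hij : i ≠ j) (a b : Orb Q) :
    (Function.update (Function.update x i a) j b) i = a := by
  rw [Function.update_of_ne hij, Function.update_self]

private theorem upd_j (x : Cfg N Q) (i j : Fin N) (a b : Orb Q) :
    (Function.update (Function.update x i a) j b) j = b := by
  rw [Function.update_self]

private theorem upd_back (x : Cfg N Q) (i j : Fin N) (hij : i ≠ j) (a b : Orb Q) :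
    Function.update (Function.update (Function.update (Function.update x i a) j b) i (x i))
      j (x j) = x := by
  rw [Function.update_comm hij.symm b (x i) (Function.update x i a), Function.update_idem,
    Function.update_idem, Function.update_eq_self, Function.update_eq_self]

private theorem tripInv_invol (i j : Fin N) (hij : i ≠ j) :
    Function.Involutive (tripInv (Q := Q) i j) := by
  rintro ⟨x, a, b⟩
  simp only [tripInv, upd_i x i j hij a b, upd_j x i j a b, upd_back x i j hij a b]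

theorem pairOp_symm {P : Matrix (Pair Q) (Pair Q) ℂ} (herm : Pᴴ = P) (i j : Fin N)
    (hij : i ≠ j) (φ ψ : Cfg N Q → ℂ) :
    ip (pairOp P i j φ) ψ = ip φ (pairOp P i j ψ) := by
  have hL : ip (pairOp P i j φ) ψ = ∑ t : Cfg N Q × Orb Q × Orb Q,
      star (P (t.1 i, t.1 j) (t.2.1, t.2.2))
        * star (φ (Function.update (Function.update t.1 i t.2.1) j t.2.2)) * ψ t.1 := by
    simp only [Fintype.sum_prod_type, ip, pairOp, star_sum, star_mul', Finset.sum_mul]
  have hR : ip φ (pairOp P i j ψ) = ∑ t : Cfg N Q × Orb Q × Orb Q,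
      star (φ t.1) * (P (t.1 i, t.1 j) (t.2.1, t.2.2)
        * ψ (Function.update (Function.update t.1 i t.2.1) j t.2.2)) := by
    simp only [Fintype.sum_prod_type, ip, pairOp, Finset.mul_sum]
  rw [hL, hR]
  refine Fintype.sum_equiv (Function.Involutive.toPerm (tripInv i j) (tripInv_invol i j hij))
    _ _ (fun t => ?_)
  obtain ⟨x, a, b⟩ := t
  simp only [Function.Involutive.coe_toPerm, tripInv, upd_i x i j hij a b, upd_j x i j a b,
    upd_back x i j hij a b]
  have hP : star (P (x i, x j) (a, b)) = P (a, b) (x i, x j) := by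
    have := congrFun (congrFun herm (a, b)) (x i, x j)
    rw [Matrix.conjTranspose_apply] at this
    exact this
  rw [hP]
  ring

theorem ham_symm {P : Matrix (Pair Q) (Pair Q) ℂ} (herm : Pᴴ = P) (φ ψ : Cfg N Q → ℂ) :
    ip (ham P φ) ψ = ip φ (ham P ψ) := by
  rw [ham_eq_sum, ham_eq_sum, ip_sum_left, ip_sum_right]
  refine Finset.sum_congr rfl fun i _ => ?_
  rw [ip_sum_left, ip_sum_right]
  refine Finset.sum_congr rfl fun j _ => ?_
  by_cases h : i < j
  · simp only [h, if_true]
    exact pairOp_symm herm i j (ne_of_lt h) φ ψ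
  · simp only [h, if_false]
    simp [ip]

theorem pairOp_idem {P : Matrix (Pair Q) (Pair Q) ℂ} (idem : P * P = P) (i j : Fin N)
    (hij : i ≠ j) (ψ : Cfg N Q → ℂ) :
    pairOp P i j (pairOp P i j ψ) = pairOp P i j ψ := by
  funext x
  have hpair : ∀ (χ : Cfg N Q → ℂ) (y : Cfg N Q), pairOp P i j χ y
      = ∑ p : Pair Q, P (y i, y j) p * χ (Function.update (Function.update y i p.1) j p.2) := by
    intro χ y
    simp only [pairOp, Fintype.sum_prod_type]
  rw [hpair (pairOp P i j ψ) x]
  simp only [hpair ψ]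
  have e3 : ∀ p q : Pair Q,
      Function.update (Function.update (Function.update (Function.update x i p.1) j p.2) i q.1)
        j q.2 = Function.update (Function.update x i q.1) j q.2 := by
    intro p q
    rw [Function.update_comm hij.symm p.2 q.1 (Function.update x i p.1), Function.update_idem,
      Function.update_idem]
  have e1 : ∀ p : Pair Q, (Function.update (Function.update x i p.1) j p.2) i = p.1 :=
    fun p => upd_i x i j hij p.1 p.2
  have e2 : ∀ p : Pair Q, (Function.update (Function.update x i p.1) j p.2) j = p.2 :=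
    fun p => upd_j x i j p.1 p.2
  simp only [e1, e2, e3, Prod.mk.eta, Finset.mul_sum]
  rw [Finset.sum_comm]
  refine Finset.sum_congr rfl fun q _ => ?_
  have hPP : P (x i, x j) q = ∑ p, P (x i, x j) p * P p q := by
    conv_lhs => rw [← idem]
    rw [Matrix.mul_apply]
  rw [hPP, Finset.sum_mul]
  refine Finset.sum_congr rfl fun p _ => by ring

theorem pairOp_nonneg {P : Matrix (Pair Q) (Pair Q) ℂ} (herm : Pᴴ = P) (idem : P * P = P)
    (i j : Fin N) (hij : i ≠ j) (ψ : Cfg N Q → ℂ) :
    0 ≤ (ip ψ (pairOp P i j ψ)).re ∧ (ip ψ (pairOp P i j ψ)).im = 0 := by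
  have h : ip ψ (pairOp P i j ψ) = ip (pairOp P i j ψ) (pairOp P i j ψ) := by
    conv_lhs => rw [← pairOp_idem idem i j hij ψ]
    exact (pairOp_symm herm i j hij ψ (pairOp P i j ψ)).symm
  rw [h]
  refine ⟨ip_self_re_nonneg _, ?_⟩
  rw [ip_self, Complex.ofReal_im]

private theorem level_update2 (x : Cfg N Q) (i j : Fin N) (hij : i ≠ j) (a b : Orb Q)
    (h : (x i : ℕ) + (x j : ℕ) = (a : ℕ) + (b : ℕ)) :
    level (Function.update (Function.update x i a) j b) = level x := by
  have split : ∀ y : Cfg N Q, level y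
      = (y i : ℕ) + ((y j : ℕ) + ∑ l ∈ (Finset.univ.erase i).erase j, (y l : ℕ)) := by
    intro y
    simp only [level]
    rw [← Finset.add_sum_erase Finset.univ (fun l => (y l : ℕ)) (Finset.mem_univ i)]
    rw [← Finset.add_sum_erase (Finset.univ.erase i) (fun l => (y l : ℕ))
      (Finset.mem_erase.mpr ⟨hij.symm, Finset.mem_univ j⟩)]
  rw [split, split x]
  have e3 : ∑ l ∈ (Finset.univ.erase i).erase j,
      ((Function.update (Function.update x i a) j b) l : ℕ)
      = ∑ l ∈ (Finset.univ.erase i).erase j, (x l : ℕ) := by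
    refine Finset.sum_congr rfl fun l hl => ?_
    have hlj : l ≠ j := (Finset.mem_erase.mp hl).1
    have hli : l ≠ i := (Finset.mem_erase.mp (Finset.mem_erase.mp hl).2).1
    rw [Function.update_of_ne hlj, Function.update_of_ne hli]
  rw [upd_i x i j hij a b, upd_j x i j a b, e3]
  omega

private theorem pairOp_levN {P : Matrix (Pair Q) (Pair Q) ℂ}
    (hwt : ∀ p q : Pair Q, P p q ≠ 0 → (p.1 : ℕ) + (p.2 : ℕ) = (q.1 : ℕ) + (q.2 : ℕ))
    (M : ℕ) (i j : Fin N) (hij : i ≠ j) (ψ : Cfg N Q → ℂ) (x : Cfg N Q) :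
    pairOp P i j (levN M ψ) x = levN M (pairOp P i j ψ) x := by
  simp only [pairOp, levN]
  have key : ∀ a b : Orb Q, P (x i, x j) (a, b)
      * (if level (Function.update (Function.update x i a) j b) = M
          then ψ (Function.update (Function.update x i a) j b) else 0)
      = if level x = M
          then P (x i, x j) (a, b) * ψ (Function.update (Function.update x i a) j b)
          else 0 := by
    intro a b
    by_cases hP : P (x i, x j) (a, b) = 0
    · rw [hP]
      simp
    · have hlev := level_update2 x i j hij a b (hwt _ _ hP)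
      rw [hlev]
      split_ifs <;> simp
  simp only [key]
  by_cases h : level x = M
  · simp [h]
  · simp [h]

theorem ham_levN {P : Matrix (Pair Q) (Pair Q) ℂ}
    (hwt : ∀ p q : Pair Q, P p q ≠ 0 → (p.1 : ℕ) + (p.2 : ℕ) = (q.1 : ℕ) + (q.2 : ℕ))
    (M : ℕ) (ψ : Cfg N Q → ℂ) : ham P (levN M ψ) = levN M (ham P ψ) := by
  funext x
  have key : ∀ i j : Fin N, (if i < j then pairOp P i j (levN M ψ) x else 0)
      = if level x = M then (if i < j then pairOp P i j ψ x else 0) else 0 := by
    intro i j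
    by_cases h : i < j
    · simp only [h, if_true]
      rw [pairOp_levN hwt M i j (ne_of_lt h) ψ x]
      rfl
    · simp [h]
  show (∑ i, ∑ j, if i < j then pairOp P i j (levN M ψ) x else 0)
    = if level x = M then (∑ i, ∑ j, if i < j then pairOp P i j ψ x else 0) else 0
  simp only [key]
  by_cases h : level x = M
  · simp [h]
  · simp [h]

end Vale.Agent.Lib.P359
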