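import Vale.Agent.Lib.P359.ManyBasic

namespace Vale.Agent.Lib.P359

open Matrix

variable {N Q : ℕ}

/-- the diagonal one-body operator multiplies by the occupation number of the orbital -/
private theorem pauli_dG_diag (Ψ : Cfg N Q → ℂ) (a : Orb Q) (x : Cfg N Q) :
    dG a a Ψ x = ((Finset.univ.filter (fun j => x j = a)).card : ℂ) * Ψ x := by
  unfold dG eop
  have h1 : ∀ j, (if x j = a then Ψ (Function.update x j a) else 0) =
      if x j = a then Ψ x else 0 := by
    intro j
    split_ifs with h
    · rw [← h, Function.update_eq_self]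
    · rfl
  simp_rw [h1]
  rw [← Finset.sum_filter, Finset.sum_const, nsmul_eq_mul]

private theorem pauli_card_sum (x : Cfg N Q) :
    ∑ a, ((Finset.univ.filter (fun j => x j = a)).card : ℂ) = (N : ℂ) := by
  rw [← Nat.cast_sum]
  have h := Finset.card_eq_sum_card_fiberwise (f := x) (s := Finset.univ) (t := Finset.univ)
    (fun _ _ => Finset.mem_univ _)
  rw [← h]
  simp

private theorem pauli_pointwise {Ψ : Cfg N Q → ℂ} (hΨ : Antisym Ψ) (x : Cfg N Q) :
    ∑ a, star (dG a a Ψ x) * dG a a Ψ x = (N : ℂ) * (star (Ψ x) * Ψ x) := by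
  by_cases h0 : Ψ x = 0
  · simp [pauli_dG_diag, h0]
  · have hinj : Function.Injective x := by
      intro i j hij
      by_contra hne
      exact h0 (antisym_eq_zero hΨ x i j hne hij)
    have hterm : ∀ a, star (dG a a Ψ x) * dG a a Ψ x =
        ((Finset.univ.filter (fun j => x j = a)).card : ℂ) * (star (Ψ x) * Ψ x) := by
      intro a
      have hle : (Finset.univ.filter (fun j => x j = a)).card ≤ 1 := by
        apply Finset.card_le_one.mpr
        intro i hi j hj
        rw [Finset.mem_filter] at hi hj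
        exact hinj (hi.2.trans hj.2.symm)
      rw [pauli_dG_diag]
      rcases Nat.le_one_iff_eq_zero_or_eq_one.mp hle with h | h
      · rw [h]; simp
      · rw [h]; simp
    rw [Finset.sum_congr rfl (fun a _ => hterm a), ← Finset.sum_mul, pauli_card_sum]

/-- Pauli principle: `sum_a |n_a Ψ|^2 = N |Ψ|^2` for antisymmetric `Ψ` -/
theorem pauli_rule {Ψ : Cfg N Q → ℂ} (hΨ : Antisym Ψ) :
    ∑ a, ip (dG a a Ψ) (dG a a Ψ) = (N : ℂ) * ip Ψ Ψ := by
  unfold ip
  rw [Finset.sum_comm, Finset.mul_sum]
  exact Finset.sum_congr rfl (fun x _ => pauli_pointwise hΨ x)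

private theorem pauli_level_update (x : Cfg N Q) (j : Fin N) (b : Orb Q) :
    level (Function.update x j b) + ((x j : Orb Q) : ℕ) = level x + ((b : Orb Q) : ℕ) := by
  unfold level
  rw [← Finset.add_sum_erase Finset.univ (fun i => ((Function.update x j b i : Orb Q) : ℕ))
      (Finset.mem_univ j),
    ← Finset.add_sum_erase Finset.univ (fun i => ((x i : Orb Q) : ℕ)) (Finset.mem_univ j)]
  have h : ∑ i ∈ Finset.univ.erase j, ((Function.update x j b i : Orb Q) : ℕ) =
      ∑ i ∈ Finset.univ.erase j, ((x i : Orb Q) : ℕ) := by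
    apply Finset.sum_congr rfl
    intro i hi
    rw [Function.update_of_ne (Finset.ne_of_mem_erase hi)]
  rw [h, Function.update_self]
  omega

/-- `dΓ(E_ab)` with `a ≠ b` changes the total level -/
theorem weight_orth {Ψ : Cfg N Q → ℂ} (M : ℕ) (hM : ∀ x, Ψ x ≠ 0 → level x = M)
    (a b : Orb Q) (hab : a ≠ b) : ip Ψ (dG a b Ψ) = 0 := by
  unfold ip
  apply Finset.sum_eq_zero
  intro x _
  by_cases hx : Ψ x = 0
  · simp [hx]
  · have hl := hM x hx
    have hz : dG a b Ψ x = 0 := by
      unfold dG eop
      apply Finset.sum_eq_zero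
      intro j _
      split_ifs with hj
      · by_contra hne
        have hl2 := hM _ hne
        have hu := pauli_level_update x j b
        rw [hl2, hl, hj] at hu
        exact hab (Fin.ext (by omega))
      · rfl
    rw [hz, mul_zero]

/-- some level component of a nonzero wavefunction is nonzero -/
theorem exists_levN_ne_zero {ψ : Cfg N Q → ℂ} (h : ψ ≠ 0) : ∃ M : ℕ, levN M ψ ≠ 0 := by
  obtain ⟨x, hx⟩ := Function.ne_iff.mp h
  refine ⟨level x, fun h0 => hx ?_⟩
  have h1 := congrFun h0 x
  simpa [levN] using h1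

theorem levN_support (M : ℕ) (ψ : Cfg N Q → ℂ) (x : Cfg N Q) (hx : levN M ψ x ≠ 0) :
    level x = M := by
  by_contra h
  exact hx (by simp [levN, h])

end Vale.Agent.Lib.P359
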