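import Vale.Agent.Lib.P359.Spin

namespace Vale.Agent.Lib.P359

open Matrix

theorem P_mem {Q : ℕ} {P : Matrix (Pair Q) (Pair Q) ℂ} (hP : IsPairProj Q P)
    (v : Pair Q → ℂ) : InK Q (P *ᵥ v) := by
  have h1 : P *ᵥ (P *ᵥ v) = P *ᵥ v := by
    rw [Matrix.mulVec_mulVec, hP.2.1]
  exact (hP.2.2 (P *ᵥ v)).1 h1

theorem P_fix {Q : ℕ} {P : Matrix (Pair Q) (Pair Q) ℂ} (hP : IsPairProj Q P)
    (v : Pair Q → ℂ) (hv : InK Q v) : P *ᵥ v = v :=
  (hP.2.2 v).2 hv

/-- an operator commuting with the Casimir operator maps the range of `P` into itself -/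
private theorem ProjComm_sandwich {Q : ℕ} {P : Matrix (Pair Q) (Pair Q) ℂ} (hP : IsPairProj Q P)
    (B : Matrix (Pair Q) (Pair Q) ℂ) (h : B * casimir Q = casimir Q * B) :
    P * B * P = B * P := by
  rw [Matrix.ext_iff_mulVec]
  intro v
  have hw : InK Q (P *ᵥ v) := P_mem hP v
  have hBw : InK Q (B *ᵥ (P *ᵥ v)) := by
    unfold InK at hw ⊢
    rw [Matrix.mulVec_mulVec, ← h, ← Matrix.mulVec_mulVec, hw, Matrix.mulVec_smul]
  have h1 := P_fix hP _ hBw
  rw [← Matrix.mulVec_mulVec, ← Matrix.mulVec_mulVec, ← Matrix.mulVec_mulVec]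
  exact h1

theorem proj_comm {Q : ℕ} {P : Matrix (Pair Q) (Pair Q) ℂ} (hP : IsPairProj Q P)
    (A : Matrix (Pair Q) (Pair Q) ℂ) (h1 : A * casimir Q = casimir Q * A)
    (h2 : Aᴴ * casimir Q = casimir Q * Aᴴ) : A * P = P * A := by
  have e1 : P * A * P = A * P := ProjComm_sandwich hP A h1
  have e2 : P * Aᴴ * P = Aᴴ * P := ProjComm_sandwich hP Aᴴ h2
  have e3 : P * A * P = P * A := by
    have e4 := congrArg Matrix.conjTranspose e2
    rw [Matrix.conjTranspose_mul, Matrix.conjTranspose_mul, Matrix.conjTranspose_mul,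
      Matrix.conjTranspose_conjTranspose, hP.1, ← Matrix.mul_assoc] at e4
    exact e4
  rw [← e1, e3]

theorem P_comm_Jz {Q : ℕ} {P : Matrix (Pair Q) (Pair Q) ℂ} (hP : IsPairProj Q P) :
    pairSum (Sz Q) * P = P * pairSum (Sz Q) := by
  refine proj_comm hP _ (casimir_comm_Jz Q).symm ?_
  rw [pairSum_conjTranspose, Sz_conjTranspose]
  exact (casimir_comm_Jz Q).symm

theorem P_comm_Jp {Q : ℕ} {P : Matrix (Pair Q) (Pair Q) ℂ} (hP : IsPairProj Q P) :
    pairSum (Sp Q) * P = P * pairSum (Sp Q) := by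
  refine proj_comm hP _ (casimir_comm_Jp Q).symm ?_
  rw [pairSum_conjTranspose]
  exact (casimir_comm_Jm Q).symm

theorem P_comm_Jm {Q : ℕ} {P : Matrix (Pair Q) (Pair Q) ℂ} (hP : IsPairProj Q P) :
    pairSum (Sm Q) * P = P * pairSum (Sm Q) := by
  refine proj_comm hP _ (casimir_comm_Jm Q).symm ?_
  have e : (Sm Q)ᴴ = Sp Q := by
    unfold Sm
    rw [Matrix.conjTranspose_conjTranspose]
  rw [pairSum_conjTranspose, e]
  exact (casimir_comm_Jp Q).symm

theorem P_comm_swap {Q : ℕ} {P : Matrix (Pair Q) (Pair Q) ℂ} (hP : IsPairProj Q P) :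
    swapM Q * P = P * swapM Q := by
  refine proj_comm hP _ (casimir_comm_swap Q).symm ?_
  rw [swapM_conjTranspose]
  exact (casimir_comm_swap Q).symm

theorem P_weight {Q : ℕ} {P : Matrix (Pair Q) (Pair Q) ℂ} (hP : IsPairProj Q P)
    (p q : Pair Q) (h : P p q ≠ 0) :
    (p.1 : ℕ) + (p.2 : ℕ) = (q.1 : ℕ) + (q.2 : ℕ) := by
  have h1 := congrFun (congrFun (P_comm_Jz hP) p) q
  rw [Matrix.mul_apply, Matrix.mul_apply] at h1
  simp only [pairSum_Sz_apply, ite_mul, zero_mul, mul_ite, mul_zero, Finset.sum_ite_eq,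
    Finset.sum_ite_eq', Finset.mem_univ, if_true] at h1
  have h2 : (((p.1 : ℕ) : ℂ) + ((p.2 : ℕ) : ℂ) - (((q.1 : ℕ) : ℂ) + ((q.2 : ℕ) : ℂ))) * P p q
      = 0 := by
    linear_combination -h1
  rcases mul_eq_zero.1 h2 with h3 | h3
  · have h4 : (((p.1 : ℕ) + (p.2 : ℕ) : ℕ) : ℂ) = (((q.1 : ℕ) + (q.2 : ℕ) : ℕ) : ℂ) := by
      push_cast
      linear_combination h3
    exact Nat.cast_injective h4
  · exact absurd h3 h

theorem P_exchange {Q : ℕ} {P : Matrix (Pair Q) (Pair Q) ℂ} (hP : IsPairProj Q P)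
    (p q : Pair Q) : P p.swap q.swap = P p q := by
  have h1 := congrFun (congrFun (P_comm_swap hP) p.swap) q
  have e1 : (swapM Q * P) p.swap q = P p q := by
    have e := swapM_mulVec Q (fun k => P k q) p.swap
    rw [Prod.swap_swap] at e
    exact e
  have e2 : (P * swapM Q) p.swap q = P p.swap q.swap := by
    rw [Matrix.mul_apply]
    simp [swapM]
  rw [e1, e2] at h1
  exact h1.symm

end Vale.Agent.Lib.P359
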