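import Vale.Agent.Lib.P359.Basic

namespace Vale.Agent.Lib.P359

open Matrix
open scoped Kronecker

private theorem Spin_Sp_apply (Q : ℕ) (m m' : Orb Q) :
    Sp Q m m' = if (m' : ℕ) = (m : ℕ) + 1 then
      ((Real.sqrt ((((m : ℕ) : ℝ) + 1) * ((Q : ℝ) - ((m : ℕ) : ℝ))) : ℝ) : ℂ) else 0 := rfl

private theorem Spin_Sm_apply (Q : ℕ) (k m : Orb Q) : Sm Q k m = Sp Q m k := by
  unfold Sm
  rw [conjTranspose_apply, Spin_Sp_apply]
  split_ifs <;> simp

private theorem Spin_nonneg (Q : ℕ) (m : Orb Q) :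
    (0 : ℝ) ≤ (((m : ℕ) : ℝ) + 1) * ((Q : ℝ) - ((m : ℕ) : ℝ)) := by
  have h1 : ((m : ℕ) : ℝ) ≤ (Q : ℝ) := by
    have := m.isLt
    exact_mod_cast Nat.lt_succ_iff.mp this
  have h0 : (0 : ℝ) ≤ ((m : ℕ) : ℝ) := Nat.cast_nonneg _
  apply mul_nonneg <;> linarith

private theorem Spin_sq (Q : ℕ) (m m' : Orb Q) (h : (m' : ℕ) = (m : ℕ) + 1) :
    Sp Q m m' * Sp Q m m' = (((m : ℕ) : ℂ) + 1) * ((Q : ℂ) - ((m : ℕ) : ℂ)) := by
  rw [Spin_Sp_apply, if_pos h, ← Complex.ofReal_mul, Real.mul_self_sqrt (Spin_nonneg Q m)]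
  push_cast
  ring

private theorem Spin_sumA (Q : ℕ) (m m' : Orb Q) :
    ∑ k, Sp Q m k * Sp Q m' k =
      if m = m' then (((m : ℕ) : ℂ) + 1) * ((Q : ℂ) - ((m : ℕ) : ℂ)) else 0 := by
  by_cases hm : (m : ℕ) < Q
  · have hk : (m : ℕ) + 1 < Q + 1 := by omega
    rw [Finset.sum_eq_single (⟨(m : ℕ) + 1, hk⟩ : Orb Q)]
    · by_cases hmm : m = m'
      · subst hmm
        rw [if_pos rfl, Spin_sq Q m _ rfl]
      · rw [if_neg hmm, Spin_Sp_apply Q m', if_neg, mul_zero]
        intro h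
        apply hmm
        apply Fin.ext
        have h' : (m : ℕ) + 1 = (m' : ℕ) + 1 := h
        omega
    · intro k _ hk'
      rw [Spin_Sp_apply, if_neg, zero_mul]
      intro h
      exact hk' (Fin.ext h)
    · intro h
      exact absurd (Finset.mem_univ _) h
  · have hz : ∀ k : Orb Q, Sp Q m k = 0 := by
      intro k
      rw [Spin_Sp_apply, if_neg]
      have := k.isLt
      omega
    simp only [hz, zero_mul, Finset.sum_const_zero]
    have hmQ : (m : ℕ) = Q := by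
      have := m.isLt
      omega
    split_ifs
    · rw [hmQ]
      ring
    · rfl

private theorem Spin_sumB (Q : ℕ) (m m' : Orb Q) :
    ∑ k, Sp Q k m * Sp Q k m' =
      if m = m' then ((m : ℕ) : ℂ) * ((Q : ℂ) - ((m : ℕ) : ℂ) + 1) else 0 := by
  by_cases hm : 0 < (m : ℕ)
  · have hk : (m : ℕ) - 1 < Q + 1 := by
      have := m.isLt
      omega
    have hk1 : (m : ℕ) = ((⟨(m : ℕ) - 1, hk⟩ : Orb Q) : ℕ) + 1 := by
      show (m : ℕ) = ((m : ℕ) - 1) + 1
      omega
    rw [Finset.sum_eq_single (⟨(m : ℕ) - 1, hk⟩ : Orb Q)]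
    · by_cases hmm : m = m'
      · subst hmm
        rw [if_pos rfl, Spin_sq Q _ m hk1]
        have hc : ((m : ℕ) : ℂ) = (((⟨(m : ℕ) - 1, hk⟩ : Orb Q) : ℕ) : ℂ) + 1 := by
          exact_mod_cast congrArg (Nat.cast : ℕ → ℂ) hk1
        rw [hc]
        ring
      · rw [if_neg hmm, Spin_Sp_apply Q _ m', if_neg, mul_zero]
        intro h
        apply hmm
        apply Fin.ext
        have h' : (m' : ℕ) = ((m : ℕ) - 1) + 1 := h
        omega
    · intro k _ hk'
      rw [Spin_Sp_apply, if_neg, zero_mul]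
      intro h
      apply hk'
      apply Fin.ext
      show (k : ℕ) = (m : ℕ) - 1
      omega
    · intro h
      exact absurd (Finset.mem_univ _) h
  · have hz : ∀ k : Orb Q, Sp Q k m = 0 := by
      intro k
      rw [Spin_Sp_apply, if_neg]
      omega
    simp only [hz, zero_mul, Finset.sum_const_zero]
    have hm0 : (m : ℕ) = 0 := by omega
    split_ifs
    · rw [hm0]
      simp
    · rfl

theorem Sz_conjTranspose (Q : ℕ) : (Sz Q)ᴴ = Sz Q := by
  unfold Sz
  rw [diagonal_conjTranspose]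
  congr 1
  funext m
  simp

theorem Sz_Sp_comm (Q : ℕ) : Sz Q * Sp Q - Sp Q * Sz Q = Sp Q := by
  ext m m'
  unfold Sz
  rw [Matrix.sub_apply, diagonal_mul, mul_diagonal]
  by_cases h : (m' : ℕ) = (m : ℕ) + 1
  · have hc : ((m' : ℕ) : ℂ) = ((m : ℕ) : ℂ) + 1 := by
      exact_mod_cast congrArg (Nat.cast : ℕ → ℂ) h
    rw [hc]
    ring
  · rw [Spin_Sp_apply, if_neg h]
    ring

theorem Sp_Sm_comm (Q : ℕ) : Sp Q * Sm Q - Sm Q * Sp Q = (2 : ℂ) • Sz Q := by
  ext m m'
  rw [Matrix.sub_apply, Matrix.mul_apply, Matrix.mul_apply, Matrix.smul_apply]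
  simp only [Spin_Sm_apply]
  rw [Spin_sumA, Spin_sumB]
  unfold Sz
  rw [diagonal_apply]
  split_ifs with h
  · simp only [smul_eq_mul]
    ring
  · simp

theorem Sp_ne_zero (Q : ℕ) (m m' : Orb Q) (h : (m' : ℕ) = (m : ℕ) + 1) : Sp Q m m' ≠ 0 := by
  have hm : (m : ℕ) < Q := by
    have := m'.isLt
    omega
  have hpos : (0 : ℝ) < (((m : ℕ) : ℝ) + 1) * ((Q : ℝ) - ((m : ℕ) : ℝ)) := by
    have h1 : ((m : ℕ) : ℝ) < (Q : ℝ) := by exact_mod_cast hm
    have h0 : (0 : ℝ) ≤ ((m : ℕ) : ℝ) := Nat.cast_nonneg _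
    apply mul_pos <;> linarith
  rw [Spin_Sp_apply, if_pos h]
  exact_mod_cast (Real.sqrt_pos.mpr hpos).ne'

theorem Sp_eq_zero (Q : ℕ) (m m' : Orb Q) (h : (m' : ℕ) ≠ (m : ℕ) + 1) : Sp Q m m' = 0 := by
  rw [Spin_Sp_apply, if_neg h]

theorem spin_casimir (Q : ℕ) :
    Sz Q * Sz Q + (1 / 2 : ℂ) • (Sp Q * Sm Q + Sm Q * Sp Q) =
      ((Q : ℂ) / 2 * ((Q : ℂ) / 2 + 1)) • (1 : Matrix (Orb Q) (Orb Q) ℂ) := by
  ext m m'
  rw [Matrix.add_apply, Matrix.smul_apply, Matrix.add_apply, Matrix.mul_apply (M := Sp Q),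
    Matrix.mul_apply (M := Sm Q), Matrix.smul_apply, Matrix.one_apply]
  simp only [Spin_Sm_apply]
  rw [Spin_sumA, Spin_sumB]
  unfold Sz
  rw [diagonal_mul_diagonal, diagonal_apply]
  split_ifs with h
  · simp only [smul_eq_mul]
    ring
  · simp

theorem pairSum_apply {Q : ℕ} (A : Matrix (Orb Q) (Orb Q) ℂ) (p q : Pair Q) :
    pairSum A p q = A p.1 q.1 * (if p.2 = q.2 then 1 else 0) +
      (if p.1 = q.1 then 1 else 0) * A p.2 q.2 := by
  unfold pairSum
  rw [Matrix.add_apply, kroneckerMap_apply, kroneckerMap_apply, Matrix.one_apply,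
    Matrix.one_apply]

private theorem Spin_pairSum_eq {Q : ℕ} (A : Matrix (Orb Q) (Orb Q) ℂ) :
    pairSum A = A ⊗ₖ (1 : Matrix (Orb Q) (Orb Q) ℂ) + (1 : Matrix (Orb Q) (Orb Q) ℂ) ⊗ₖ A := rfl

theorem pairSum_comm {Q : ℕ} (A B C : Matrix (Orb Q) (Orb Q) ℂ) (h : A * B - B * A = C) :
    pairSum A * pairSum B - pairSum B * pairSum A = pairSum C := by
  have hAB : A * B = C + B * A := by
    rw [← h]
    abel
  have e1 : ∀ X Y : Matrix (Orb Q) (Orb Q) ℂ, pairSum X * pairSum Y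
      = (X * Y) ⊗ₖ (1 : Matrix (Orb Q) (Orb Q) ℂ) + X ⊗ₖ Y + Y ⊗ₖ X
        + (1 : Matrix (Orb Q) (Orb Q) ℂ) ⊗ₖ (X * Y) := by
    intro X Y
    rw [Spin_pairSum_eq, Spin_pairSum_eq]
    simp only [add_mul, mul_add, ← mul_kronecker_mul, mul_one, one_mul]
    abel
  rw [e1 A B, e1 B A, hAB, Spin_pairSum_eq, add_kronecker, kronecker_add]
  abel

theorem pairSum_conjTranspose {Q : ℕ} (A : Matrix (Orb Q) (Orb Q) ℂ) :
    (pairSum A)ᴴ = pairSum Aᴴ := by
  rw [Spin_pairSum_eq, Spin_pairSum_eq, conjTranspose_add, conjTranspose_kronecker,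
    conjTranspose_kronecker, conjTranspose_one]

theorem pairSum_smul {Q : ℕ} (c : ℂ) (A : Matrix (Orb Q) (Orb Q) ℂ) :
    pairSum (c • A) = c • pairSum A := by
  rw [Spin_pairSum_eq, Spin_pairSum_eq, smul_kronecker, kronecker_smul, smul_add]

theorem pairSum_Sz_apply (Q : ℕ) (p q : Pair Q) :
    pairSum (Sz Q) p q =
      if p = q then (Q : ℂ) - ((p.1 : ℕ) : ℂ) - ((p.2 : ℕ) : ℂ) else 0 := by
  rw [pairSum_apply]
  unfold Sz
  rw [diagonal_apply, diagonal_apply]
  by_cases h1 : p.1 = q.1 <;> by_cases h2 : p.2 = q.2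
  · simp only [if_pos h1, if_pos h2, if_pos (Prod.ext h1 h2)]
    ring
  · have hpq : ¬ p = q := fun h => h2 (by rw [h])
    simp only [if_pos h1, if_neg h2, if_neg hpq]
    ring
  · have hpq : ¬ p = q := fun h => h1 (by rw [h])
    simp only [if_neg h1, if_pos h2, if_neg hpq]
    ring
  · have hpq : ¬ p = q := fun h => h1 (by rw [h])
    simp only [if_neg h1, if_neg h2, if_neg hpq]
    ring

private theorem Spin_swapM_apply (Q : ℕ) (p q : Pair Q) :
    swapM Q p q = if p = q.swap then 1 else 0 := rfl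

theorem swapM_mulVec (Q : ℕ) (v : Pair Q → ℂ) (p : Pair Q) :
    (swapM Q *ᵥ v) p = v p.swap := by
  show ∑ q, swapM Q p q * v q = v p.swap
  rw [Finset.sum_eq_single p.swap]
  · rw [Spin_swapM_apply, Prod.swap_swap, if_pos rfl, one_mul]
  · intro q _ hq
    have hne : ¬ (p = q.swap) := fun h => hq (by rw [h, Prod.swap_swap])
    rw [Spin_swapM_apply, if_neg hne, zero_mul]
  · intro h
    exact absurd (Finset.mem_univ _) h

theorem swapM_conjTranspose (Q : ℕ) : (swapM Q)ᴴ = swapM Q := by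
  ext p q
  rw [conjTranspose_apply, Spin_swapM_apply, Spin_swapM_apply]
  by_cases h : p = q.swap
  · have h' : q = p.swap := by rw [h, Prod.swap_swap]
    rw [if_pos h, if_pos h']
    simp
  · have h' : ¬ q = p.swap := fun h' => h (by rw [h', Prod.swap_swap])
    rw [if_neg h, if_neg h']
    simp

private theorem Spin_swapM_mul (Q : ℕ) (M : Matrix (Pair Q) (Pair Q) ℂ) (p q : Pair Q) :
    (swapM Q * M) p q = M p.swap q := by
  rw [Matrix.mul_apply, Finset.sum_eq_single p.swap]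
  · rw [Spin_swapM_apply, Prod.swap_swap, if_pos rfl, one_mul]
  · intro r _ hr
    have hne : ¬ (p = r.swap) := fun h => hr (by rw [h, Prod.swap_swap])
    rw [Spin_swapM_apply, if_neg hne, zero_mul]
  · intro h
    exact absurd (Finset.mem_univ _) h

private theorem Spin_mul_swapM (Q : ℕ) (M : Matrix (Pair Q) (Pair Q) ℂ) (p q : Pair Q) :
    (M * swapM Q) p q = M p q.swap := by
  rw [Matrix.mul_apply, Finset.sum_eq_single q.swap]
  · rw [Spin_swapM_apply, if_pos rfl, mul_one]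
  · intro r _ hr
    rw [Spin_swapM_apply, if_neg hr, mul_zero]
  · intro h
    exact absurd (Finset.mem_univ _) h

theorem swapM_mul_self (Q : ℕ) : swapM Q * swapM Q = 1 := by
  ext p q
  rw [Spin_swapM_mul, Spin_swapM_apply, Matrix.one_apply]
  by_cases h : p = q
  · rw [if_pos h, if_pos (by rw [h])]
  · have h' : ¬ p.swap = q.swap := fun h' => h (Prod.swap_injective h')
    rw [if_neg h, if_neg h']

theorem swapM_pairSum {Q : ℕ} (A : Matrix (Orb Q) (Orb Q) ℂ) :
    swapM Q * pairSum A = pairSum A * swapM Q := by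
  ext p q
  rw [Spin_swapM_mul, Spin_mul_swapM, pairSum_apply, pairSum_apply]
  simp only [Prod.fst_swap, Prod.snd_swap]
  ring

theorem casimir_conjTranspose (Q : ℕ) : (casimir Q)ᴴ = casimir Q := by
  have hz : (pairSum (Sz Q))ᴴ = pairSum (Sz Q) := by
    rw [pairSum_conjTranspose, Sz_conjTranspose]
  have hp : (pairSum (Sp Q))ᴴ = pairSum (Sm Q) := pairSum_conjTranspose (Sp Q)
  have hm : (pairSum (Sm Q))ᴴ = pairSum (Sp Q) := by
    rw [pairSum_conjTranspose]
    unfold Sm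
    rw [conjTranspose_conjTranspose]
  unfold casimir
  have hs : star (1 / 2 : ℂ) = 1 / 2 := by simp
  rw [conjTranspose_add, conjTranspose_smul, conjTranspose_add, conjTranspose_mul,
    conjTranspose_mul, conjTranspose_mul, hz, hp, hm, hs]

private theorem Spin_Jzp (Q : ℕ) :
    pairSum (Sz Q) * pairSum (Sp Q) - pairSum (Sp Q) * pairSum (Sz Q) = pairSum (Sp Q) :=
  pairSum_comm _ _ _ (Sz_Sp_comm Q)

private theorem Spin_Jpm (Q : ℕ) :
    pairSum (Sp Q) * pairSum (Sm Q) - pairSum (Sm Q) * pairSum (Sp Q)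
      = (2 : ℂ) • pairSum (Sz Q) := by
  rw [← pairSum_smul]
  exact pairSum_comm _ _ _ (Sp_Sm_comm Q)

theorem casimir_eq (Q : ℕ) :
    casimir Q = pairSum (Sm Q) * pairSum (Sp Q) + pairSum (Sz Q) * pairSum (Sz Q)
      + pairSum (Sz Q) := by
  have h : pairSum (Sp Q) * pairSum (Sm Q)
      = pairSum (Sm Q) * pairSum (Sp Q) + (2 : ℂ) • pairSum (Sz Q) := by
    rw [← Spin_Jpm]
    abel
  unfold casimir
  rw [h]
  module

theorem casimir_eq' (Q : ℕ) :
    casimir Q = pairSum (Sp Q) * pairSum (Sm Q) + pairSum (Sz Q) * pairSum (Sz Q)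
      - pairSum (Sz Q) := by
  have h : pairSum (Sm Q) * pairSum (Sp Q)
      = pairSum (Sp Q) * pairSum (Sm Q) - (2 : ℂ) • pairSum (Sz Q) := by
    rw [← Spin_Jpm]
    abel
  unfold casimir
  rw [h]
  module

private theorem Spin_comm_weight {R : Type*} [Ring R] (z p m : R)
    (h1 : z * p - p * z = p) (h2 : z * m - m * z = -m) :
    (m * p + z * z + z) * z = z * (m * p + z * z + z) := by
  linear_combination (norm := noncomm_ring) - h2 * p - m * h1

private theorem Spin_comm_raise {R : Type*} [Ring R] (z p m : R)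
    (h1 : z * p - p * z = p) (h3 : p * m - m * p = z + z) :
    (m * p + z * z + z) * p = p * (m * p + z * z + z) := by
  linear_combination (norm := noncomm_ring) z * h1 + h1 * z - h3 * p

theorem casimir_comm_Jz (Q : ℕ) :
    casimir Q * pairSum (Sz Q) = pairSum (Sz Q) * casimir Q := by
  have h1 := Spin_Jzp Q
  have h2 : pairSum (Sz Q) * pairSum (Sm Q) - pairSum (Sm Q) * pairSum (Sz Q)
      = - pairSum (Sm Q) := by
    have h := congrArg conjTranspose (Spin_Jzp Q)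
    rw [conjTranspose_sub, conjTranspose_mul, conjTranspose_mul, pairSum_conjTranspose,
      pairSum_conjTranspose, Sz_conjTranspose] at h
    have h' : pairSum (Sm Q) * pairSum (Sz Q) - pairSum (Sz Q) * pairSum (Sm Q)
        = pairSum (Sm Q) := h
    rw [← neg_sub, h']
  rw [casimir_eq]
  exact Spin_comm_weight _ _ _ h1 h2

theorem casimir_comm_Jp (Q : ℕ) :
    casimir Q * pairSum (Sp Q) = pairSum (Sp Q) * casimir Q := by
  have h1 := Spin_Jzp Q
  have h3 : pairSum (Sp Q) * pairSum (Sm Q) - pairSum (Sm Q) * pairSum (Sp Q)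
      = pairSum (Sz Q) + pairSum (Sz Q) := by
    rw [Spin_Jpm, two_smul]
  rw [casimir_eq]
  exact Spin_comm_raise _ _ _ h1 h3

theorem casimir_comm_Jm (Q : ℕ) :
    casimir Q * pairSum (Sm Q) = pairSum (Sm Q) * casimir Q := by
  have h := congrArg conjTranspose (casimir_comm_Jp Q)
  rw [conjTranspose_mul, conjTranspose_mul, casimir_conjTranspose, pairSum_conjTranspose] at h
  exact h.symm

theorem casimir_comm_swap (Q : ℕ) : casimir Q * swapM Q = swapM Q * casimir Q := by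
  have hc : ∀ A : Matrix (Orb Q) (Orb Q) ℂ, Commute (pairSum A) (swapM Q) :=
    fun A => (swapM_pairSum A).symm
  have h1 : Commute (pairSum (Sz Q) * pairSum (Sz Q)) (swapM Q) := (hc _).mul_left (hc _)
  have h2 : Commute (pairSum (Sp Q) * pairSum (Sm Q)) (swapM Q) := (hc _).mul_left (hc _)
  have h3 : Commute (pairSum (Sm Q) * pairSum (Sp Q)) (swapM Q) := (hc _).mul_left (hc _)
  unfold casimir
  exact h1.add_left ((h2.add_left h3).smul_left _)

end Vale.Agent.Lib.P359
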