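import Vale.Agent.Lib.P359.ManyBasic

namespace Vale.Agent.Lib.P359

open Matrix

variable {N Q : ℕ}

/-- the involutive change of variables `(x, b) ↦ (x[i0 := b], x i0)` -/
private theorem SumRuleB_reindex (i0 : Fin N) (G : Cfg N Q → Orb Q → ℂ) :
    ∑ x, ∑ b, G x b = ∑ z, ∑ a, G (Function.update z i0 a) (z i0) := by
  classical
  rw [← Fintype.sum_prod_type' G,
    ← Fintype.sum_prod_type' (fun z a => G (Function.update z i0 a) (z i0))]
  have he : Function.Involutive
      (fun p : Cfg N Q × Orb Q => (Function.update p.1 i0 p.2, p.1 i0)) := by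
    intro p
    simp
  exact (Equiv.sum_comp he.toPerm (fun p : Cfg N Q × Orb Q => G p.1 p.2)).symm

private theorem SumRuleB_sum_ip_eop (i0 : Fin N) (b : Orb Q) (Ψ : Cfg N Q → ℂ)
    (W : Orb Q → Cfg N Q → ℂ) :
    ∑ a, ip (eop i0 a b Ψ) (W a) = ∑ x, star (Ψ (Function.update x i0 b)) * W (x i0) x := by
  classical
  unfold ip eop
  rw [Finset.sum_comm]
  refine Finset.sum_congr rfl fun x _ => ?_
  rw [Finset.sum_eq_single (x i0)]
  · simp
  · intro a _ ha
    simp [Ne.symm ha]
  · intro h
    exact absurd (Finset.mem_univ _) h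

private theorem SumRuleB_main (P : Matrix (Pair Q) (Pair Q) ℂ) (i0 k m : Fin N) (hk : k ≠ i0)
    (Ψ Φ : Cfg N Q → ℂ) :
    ∑ a, ∑ b, ip (eop i0 a b Ψ) (pairOp P i0 k (eop m a b Φ)) =
      ∑ z, star (Ψ z) * ∑ a, ∑ a', ∑ b', P (a, z k) (a', b') *
        eop m a (z i0) Φ (Function.update (Function.update z i0 a') k b') := by
  classical
  rw [Finset.sum_comm]
  have h1 : ∀ b, ∑ a, ip (eop i0 a b Ψ) (pairOp P i0 k (eop m a b Φ)) =
      ∑ x, star (Ψ (Function.update x i0 b)) * pairOp P i0 k (eop m (x i0) b Φ) x := fun b =>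
    SumRuleB_sum_ip_eop i0 b Ψ (fun a => pairOp P i0 k (eop m a b Φ))
  rw [Finset.sum_congr rfl (fun b _ => h1 b), Finset.sum_comm,
    SumRuleB_reindex i0 (fun x b => star (Ψ (Function.update x i0 b)) *
      pairOp P i0 k (eop m (x i0) b Φ) x)]
  refine Finset.sum_congr rfl fun z _ => ?_
  simp only [Function.update_idem, Function.update_eq_self, Function.update_self]
  rw [← Finset.mul_sum]
  congr 1
  refine Finset.sum_congr rfl fun a _ => ?_
  unfold pairOp
  simp only [Function.update_self, Function.update_of_ne hk, Function.update_idem]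

private theorem SumRuleB_upd4 (z : Cfg N Q) (i0 k : Fin N) (hk : k ≠ i0) (a' b' : Orb Q) :
    Function.update (Function.update (Function.update z i0 a') k b') i0 (z i0) =
      Function.update z k b' := by
  funext l
  by_cases h1 : l = i0
  · subst h1
    simp [Function.update_of_ne (Ne.symm hk)]
  · by_cases h2 : l = k
    · subst h2
      simp [Function.update_of_ne h1]
    · simp [Function.update_of_ne h1, Function.update_of_ne h2]

private theorem SumRuleB_upd5 (z : Cfg N Q) (i0 k : Fin N) (hk : k ≠ i0) :
    Function.update (Function.update z i0 (z k)) k (z i0) =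
      fun l => z (Equiv.swap i0 k l) := by
  funext l
  by_cases h1 : l = i0
  · subst h1
    simp [Function.update_of_ne (Ne.symm hk)]
  · by_cases h2 : l = k
    · subst h2
      simp
    · simp [Function.update_of_ne h1, Function.update_of_ne h2,
        Equiv.swap_apply_of_ne_of_ne h1 h2]

private theorem SumRuleB_upd6 (z : Cfg N Q) (i0 k m : Fin N) (hk : k ≠ i0) (hm : m ≠ i0)
    (hmk : m ≠ k) (a' b' : Orb Q) :
    (fun l => Function.update (Function.update z m a') k b' (Equiv.swap i0 m l)) =
      Function.update (Function.update (Function.update z i0 a') k b') m (z i0) := by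
  funext l
  by_cases h1 : l = i0
  · subst h1
    simp [Function.update_of_ne hmk, Function.update_of_ne (Ne.symm hm),
      Function.update_of_ne (Ne.symm hk)]
  · by_cases h2 : l = m
    · subst h2
      simp [Function.update_of_ne (Ne.symm hk), Function.update_of_ne (Ne.symm hm)]
    · by_cases h3 : l = k
      · subst h3
        simp [Equiv.swap_apply_of_ne_of_ne h1 h2, Function.update_of_ne h2]
      · simp [Equiv.swap_apply_of_ne_of_ne h1 h2, Function.update_of_ne h1,
          Function.update_of_ne h2, Function.update_of_ne h3]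

/-- trace of `P_(i0 k)` over slot `i0` -/
theorem K4 {P : Matrix (Pair Q) (Pair Q) ℂ} {t : ℝ} (hP : PairGood Q P t) (i0 k : Fin N)
    (hk : k ≠ i0) (Ψ Φ : Cfg N Q → ℂ) :
    ∑ a, ∑ b, ip (eop i0 a b Ψ) (pairOp P i0 k (eop i0 a b Φ)) = (t : ℂ) * ip Ψ Φ := by
  classical
  rw [SumRuleB_main P i0 k i0 hk Ψ Φ]
  unfold ip
  rw [Finset.mul_sum]
  refine Finset.sum_congr rfl fun z _ => ?_
  have h2 : ∀ a a' b', eop i0 a (z i0) Φ (Function.update (Function.update z i0 a') k b') =
      if a' = a then Φ (Function.update z k b') else 0 := by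
    intro a a' b'
    unfold eop
    rw [Function.update_of_ne (Ne.symm hk), Function.update_self, SumRuleB_upd4 z i0 k hk]
  have hT : ∑ a, ∑ a', ∑ b', P (a, z k) (a', b') *
      eop i0 a (z i0) Φ (Function.update (Function.update z i0 a') k b') = (t : ℂ) * Φ z := by
    have h3 : ∀ a, ∑ a', ∑ b', P (a, z k) (a', b') *
        eop i0 a (z i0) Φ (Function.update (Function.update z i0 a') k b') =
        ∑ b', P (a, z k) (a, b') * Φ (Function.update z k b') := by
      intro a
      rw [Finset.sum_eq_single a]
      · simp [h2]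
      · intro a' _ ha'
        simp [h2, ha']
      · intro h
        exact absurd (Finset.mem_univ _) h
    rw [Finset.sum_congr rfl (fun a _ => h3 a), Finset.sum_comm]
    have h4 : ∀ b', ∑ a, P (a, z k) (a, b') * Φ (Function.update z k b') =
        (if z k = b' then (t : ℂ) else 0) * Φ (Function.update z k b') := by
      intro b'
      rw [← Finset.sum_mul, hP.ptr (z k) b']
    rw [Finset.sum_congr rfl (fun b' _ => h4 b'), Finset.sum_eq_single (z k)]
    · simp
    · intro b' _ hb'
      simp [Ne.symm hb']
    · intro h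
      exact absurd (Finset.mem_univ _) h
  rw [hT]
  ring

/-- exchange term of the trace over slot `i0` -/
theorem K5 {P : Matrix (Pair Q) (Pair Q) ℂ} {t : ℝ} (hP : PairGood Q P t) (i0 k : Fin N)
    (hk : k ≠ i0) (Ψ Φ : Cfg N Q → ℂ) :
    ∑ a, ∑ b, ip (eop i0 a b Ψ) (pairOp P i0 k (eop k a b Φ)) =
      -(t : ℂ) * ip Ψ (swp i0 k Φ) := by
  classical
  rw [SumRuleB_main P i0 k k hk Ψ Φ]
  unfold ip
  rw [Finset.mul_sum]
  refine Finset.sum_congr rfl fun z _ => ?_
  have h2 : ∀ a a' b', eop k a (z i0) Φ (Function.update (Function.update z i0 a') k b') =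
      if b' = a then Φ (Function.update (Function.update z i0 a') k (z i0)) else 0 := by
    intro a a' b'
    unfold eop
    rw [Function.update_self, Function.update_idem]
  have hT : ∑ a, ∑ a', ∑ b', P (a, z k) (a', b') *
      eop k a (z i0) Φ (Function.update (Function.update z i0 a') k b') =
      -(t : ℂ) * swp i0 k Φ z := by
    have h3 : ∀ a a', ∑ b', P (a, z k) (a', b') *
        eop k a (z i0) Φ (Function.update (Function.update z i0 a') k b') =
        -(P (a, z k) (a, a') * Φ (Function.update (Function.update z i0 a') k (z i0))) := by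
      intro a a'
      rw [Finset.sum_eq_single a]
      · have hanti := hP.anti (a, z k) (a, a')
        simp only [Prod.swap_prod_mk] at hanti
        rw [h2, if_pos rfl, hanti]
        ring
      · intro b' _ hb'
        simp [h2, hb']
      · intro h
        exact absurd (Finset.mem_univ _) h
    rw [Finset.sum_congr rfl (fun a _ => Finset.sum_congr rfl (fun a' _ => h3 a a')),
      Finset.sum_comm]
    have h4 : ∀ a', ∑ a, -(P (a, z k) (a, a') *
        Φ (Function.update (Function.update z i0 a') k (z i0))) =
        -((if z k = a' then (t : ℂ) else 0) *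
          Φ (Function.update (Function.update z i0 a') k (z i0))) := by
      intro a'
      rw [Finset.sum_neg_distrib, ← Finset.sum_mul, hP.ptr (z k) a']
    rw [Finset.sum_congr rfl (fun a' _ => h4 a'), Finset.sum_eq_single (z k)]
    · rw [if_pos rfl, SumRuleB_upd5 z i0 k hk]
      unfold swp
      ring
    · intro a' _ ha'
      simp [Ne.symm ha']
    · intro h
      exact absurd (Finset.mem_univ _) h
  rw [hT]
  ring

/-- moving a leg: third-particle term -/
theorem K6 (P : Matrix (Pair Q) (Pair Q) ℂ) (i0 k m : Fin N) (hk : k ≠ i0) (hm : m ≠ i0)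
    (hmk : m ≠ k) (Ψ Φ : Cfg N Q → ℂ) :
    ∑ a, ∑ b, ip (eop i0 a b Ψ) (pairOp P i0 k (eop m a b Φ)) =
      ip Ψ (pairOp P m k (swp i0 m Φ)) := by
  classical
  rw [SumRuleB_main P i0 k m hk Ψ Φ]
  unfold ip
  refine Finset.sum_congr rfl fun z _ => ?_
  congr 1
  have h2 : ∀ a a' b', eop m a (z i0) Φ (Function.update (Function.update z i0 a') k b') =
      if z m = a then
        Φ (Function.update (Function.update (Function.update z i0 a') k b') m (z i0)) else 0 := by
    intro a a' b'
    unfold eop
    rw [Function.update_of_ne hmk, Function.update_of_ne hm]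
  rw [Finset.sum_eq_single (z m)]
  · unfold pairOp
    refine Finset.sum_congr rfl fun a' _ => ?_
    refine Finset.sum_congr rfl fun b' _ => ?_
    rw [h2, if_pos rfl]
    unfold swp
    rw [SumRuleB_upd6 z i0 k m hk hm hmk]
  · intro a _ ha
    simp [h2, Ne.symm ha]
  · intro h
    exact absurd (Finset.mem_univ _) h

end Vale.Agent.Lib.P359
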