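import Vale.Agent.Lib.P359.SumRuleA
import Vale.Agent.Lib.P359.SumRuleB
import Vale.Agent.Lib.P359.Pauli

/-!
The sum rule: for an antisymmetric eigenvector `Ψ` of the Hamiltonian, the trial vectors
`dΓ(E_ab) Ψ` have total excitation energy at most `2 N (N - 1) t |Ψ|^2` and total squared
norm `N (Q + 2 - N) |Ψ|^2`.
-/

namespace Vale.Agent.Lib.P359

open Matrix

variable {N Q : ℕ}

theorem dG_eq_sum (a b : Orb Q) (ψ : Cfg N Q → ℂ) :
    dG a b ψ = fun x => ∑ j, eop j a b ψ x := rfl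

/-- exchanging a sum over slots with the double sum over orbitals -/
theorem sum_ab_comm {ι : Type} (s : Finset ι) (f : Orb Q → Orb Q → ι → ℂ) :
    ∑ a, ∑ b, ∑ m ∈ s, f a b m = ∑ m ∈ s, ∑ a, ∑ b, f a b m := by
  rw [Finset.sum_comm (s := s) (t := Finset.univ)]
  refine Finset.sum_congr rfl fun a _ => ?_
  rw [Finset.sum_comm (s := s) (t := Finset.univ)]

theorem pairOp_sum (P : Matrix (Pair Q) (Pair Q) ℂ) (i k : Fin N) {ι : Type} (s : Finset ι)
    (f : ι → Cfg N Q → ℂ) :
    pairOp P i k (fun x => ∑ m ∈ s, f m x) = fun x => ∑ m ∈ s, pairOp P i k (f m) x := by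
  funext x
  simp only [pairOp, Finset.mul_sum]
  exact sum_ab_comm s _

theorem norm_rule (i0 : Fin N) {Ψ : Cfg N Q → ℂ} (hΨ : Antisym Ψ) :
    ∑ a, ∑ b, ip (dG a b Ψ) (dG a b Ψ) = (N : ℂ) * ((Q : ℂ) + 2 - N) * ip Ψ Ψ := by
  have h1 : ∀ a b : Orb Q, ip (dG a b Ψ) (dG a b Ψ)
      = (N : ℂ) * ∑ m, ip (eop i0 a b Ψ) (eop m a b Ψ) := by
    intro a b
    rw [K0 hΨ (antisym_dG hΨ a b) i0 a b, dG_eq_sum, ip_sum_right]
  simp only [h1, ← Finset.mul_sum]
  rw [sum_ab_comm]
  have h3 : ∀ m : Fin N, ∑ a, ∑ b, ip (eop i0 a b Ψ) (eop m a b Ψ)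
      = if m = i0 then ((Q : ℂ) + 1) * ip Ψ Ψ else -ip Ψ Ψ := by
    intro m
    by_cases hm : m = i0
    · subst hm
      rw [if_pos rfl, K1]
    · rw [if_neg hm, K2 i0 m hm, antisym_swp hΨ i0 m (Ne.symm hm), ip_neg_right]
  simp only [h3]
  rw [Finset.sum_ite, Finset.sum_const, Finset.sum_const, Finset.filter_eq' Finset.univ i0,
    if_pos (Finset.mem_univ i0), Finset.card_singleton]
  have hc : (Finset.filter (fun m : Fin N => ¬m = i0) Finset.univ).card = N - 1 := by
    rw [Finset.filter_not, Finset.filter_eq' Finset.univ i0, if_pos (Finset.mem_univ i0),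
      Finset.card_sdiff_of_subset (Finset.subset_univ _), Finset.card_univ, Fintype.card_fin,
      Finset.card_singleton]
  rw [hc]
  have hN : 1 ≤ N := Nat.pos_of_ne_zero (fun h => by subst h; exact i0.elim0)
  simp only [nsmul_eq_mul, Nat.cast_one, one_mul]
  rw [Nat.cast_sub hN]
  push_cast
  ring

theorem ip_ite_right (c : Prop) [Decidable c] (φ f : Cfg N Q → ℂ) :
    ip φ (fun x => if c then f x else 0) = if c then ip φ f else 0 := by
  by_cases h : c
  · simp [h]
  · simp [h, ip]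

theorem pairOp_neg (P : Matrix (Pair Q) (Pair Q) ℂ) (i k : Fin N) (ψ : Cfg N Q → ℂ) :
    pairOp P i k (-ψ) = -pairOp P i k ψ := by
  have h := pairOp_smul P i k (-1 : ℂ) ψ
  simpa using h

/-- the energy of `dΓ(E_ab) Ψ`, reduced to slot `i0` -/
theorem energy_expand {P : Matrix (Pair Q) (Pair Q) ℂ} {t : ℝ} (hP : PairGood Q P t)
    (i0 : Fin N) {Ψ : Cfg N Q → ℂ} (hΨ : Antisym Ψ) (a b : Orb Q) :
    ip (dG a b Ψ) (ham P (dG a b Ψ)) = (N : ℂ) * ∑ i, ∑ k,
      if i < k then ∑ m, ip (eop i0 a b Ψ) (pairOp P i k (eop m a b Ψ)) else 0 := by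
  rw [K0 hΨ (antisym_ham hP.exch (antisym_dG hΨ a b)) i0 a b]
  congr 1
  rw [ham_eq_sum, ip_sum_right]
  refine Finset.sum_congr rfl fun i _ => ?_
  rw [ip_sum_right]
  refine Finset.sum_congr rfl fun k _ => ?_
  rw [ip_ite_right]
  by_cases hik : i < k
  · rw [if_pos hik, if_pos hik, dG_eq_sum, pairOp_sum, ip_sum_right]
  · rw [if_neg hik, if_neg hik]

/-- the slot sum for a pair not containing `i0` -/
theorem slot_sum_off {P : Matrix (Pair Q) (Pair Q) ℂ} {t : ℝ} (hP : PairGood Q P t)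
    (i0 i k : Fin N) (hi : i ≠ i0) (hk : k ≠ i0) (hik : i ≠ k) {Ψ : Cfg N Q → ℂ}
    (hΨ : Antisym Ψ) :
    ∑ m, ∑ a, ∑ b, ip (eop i0 a b Ψ) (pairOp P i k (eop m a b Ψ))
      = ((Q : ℂ) + 2 - N) * ip Ψ (pairOp P i k Ψ) := by
  have h3 : ∀ m : Fin N, ∑ a, ∑ b, ip (eop i0 a b Ψ) (pairOp P i k (eop m a b Ψ))
      = if m = i0 then ((Q : ℂ) + 1) * ip Ψ (pairOp P i k Ψ)
        else -ip Ψ (pairOp P i k Ψ) := by
    intro m
    have e : ∀ a b : Orb Q, ip (eop i0 a b Ψ) (pairOp P i k (eop m a b Ψ))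
        = ip (eop i0 a b (pairOp P i k Ψ)) (eop m a b Ψ) :=
      fun a b => K3 hP.herm i0 i k hi hk hik a b Ψ _
    simp only [e]
    by_cases hm : m = i0
    · subst hm
      rw [if_pos rfl, K1, pairOp_symm hP.herm i k hik]
    · rw [if_neg hm, K2 i0 m hm, antisym_swp hΨ i0 m (Ne.symm hm), ip_neg_right,
        pairOp_symm hP.herm i k hik]
  simp only [h3]
  rw [Finset.sum_ite, Finset.sum_const, Finset.sum_const, Finset.filter_eq' Finset.univ i0,
    if_pos (Finset.mem_univ i0), Finset.card_singleton]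
  have hc : (Finset.filter (fun m : Fin N => ¬m = i0) Finset.univ).card = N - 1 := by
    rw [Finset.filter_not, Finset.filter_eq' Finset.univ i0, if_pos (Finset.mem_univ i0),
      Finset.card_sdiff_of_subset (Finset.subset_univ _), Finset.card_univ, Fintype.card_fin,
      Finset.card_singleton]
  rw [hc]
  have hN : 1 ≤ N := Nat.pos_of_ne_zero (fun h => by subst h; exact i0.elim0)
  simp only [nsmul_eq_mul, Nat.cast_one, one_mul]
  rw [Nat.cast_sub hN]
  push_cast
  ring

/-- the slot sum for a pair containing `i0` -/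
theorem slot_sum_on {P : Matrix (Pair Q) (Pair Q) ℂ} {t : ℝ} (hP : PairGood Q P t)
    (i0 k : Fin N) (hk : k ≠ i0) {Ψ : Cfg N Q → ℂ} (hΨ : Antisym Ψ) :
    ∑ m, ∑ a, ∑ b, ip (eop i0 a b Ψ) (pairOp P i0 k (eop m a b Ψ))
      = 2 * (t : ℂ) * ip Ψ Ψ
        - ∑ m, if m = i0 ∨ m = k then 0 else ip Ψ (pairOp P m k Ψ) := by
  have h3 : ∀ m : Fin N, ∑ a, ∑ b, ip (eop i0 a b Ψ) (pairOp P i0 k (eop m a b Ψ))
      = (if m = i0 ∨ m = k then (t : ℂ) * ip Ψ Ψ else 0)
        - (if m = i0 ∨ m = k then 0 else ip Ψ (pairOp P m k Ψ)) := by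
    intro m
    by_cases hm : m = i0
    · subst hm
      rw [if_pos (Or.inl rfl), if_pos (Or.inl rfl), K4 hP m k hk, sub_zero]
    · by_cases hmk : m = k
      · subst hmk
        rw [if_pos (Or.inr rfl), if_pos (Or.inr rfl), K5 hP i0 m hk,
          antisym_swp hΨ i0 m (Ne.symm hk), ip_neg_right, sub_zero]
        ring
      · have hn : ¬(m = i0 ∨ m = k) := fun h => h.elim hm hmk
        rw [if_neg hn, if_neg hn, K6 P i0 k m hk hm hmk,
          antisym_swp hΨ i0 m (Ne.symm hm), pairOp_neg, ip_neg_right, zero_sub]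
  simp only [h3]
  rw [Finset.sum_sub_distrib]
  congr 1
  rw [Finset.sum_ite, Finset.sum_const, Finset.sum_const_zero, add_zero]
  have hc : (Finset.filter (fun m : Fin N => m = i0 ∨ m = k) Finset.univ).card = 2 := by
    have : Finset.filter (fun m : Fin N => m = i0 ∨ m = k) Finset.univ = {i0, k} := by
      ext m
      simp
    rw [this, Finset.card_pair (Ne.symm hk)]
  rw [hc]
  simp only [nsmul_eq_mul]
  push_cast
  ring

theorem sum_ab_ite (c : Prop) [Decidable c] (f : Orb Q → Orb Q → ℂ) :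
    ∑ a, ∑ b, (if c then f a b else 0) = if c then ∑ a, ∑ b, f a b else 0 := by
  by_cases h : c
  · simp [h]
  · simp [h]

/-- the energy of `Ψ` as a sum over pairs -/
theorem energy_pairs (P : Matrix (Pair Q) (Pair Q) ℂ) (Ψ : Cfg N Q → ℂ) :
    ip Ψ (ham P Ψ) = ∑ i, ∑ k, if i < k then ip Ψ (pairOp P i k Ψ) else 0 := by
  rw [ham_eq_sum, ip_sum_right]
  refine Finset.sum_congr rfl fun i _ => ?_
  rw [ip_sum_right]
  refine Finset.sum_congr rfl fun k _ => ?_
  rw [ip_ite_right]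

/-- the sum rule -/
theorem sum_rule {P : Matrix (Pair Q) (Pair Q) ℂ} {t : ℝ} (hP : PairGood Q P t)
    (i0 : Fin N) (hmin : ∀ k : Fin N, i0 ≤ k) (hNQ : N ≤ Q + 2)
    {Ψ : Cfg N Q → ℂ} (hΨ : Antisym Ψ) (E0 : ℝ) (hE : ham P Ψ = (E0 : ℂ) • Ψ) :
    ∑ a, ∑ b, ((ip (dG a b Ψ) (ham P (dG a b Ψ))).re - E0 * (ip (dG a b Ψ) (dG a b Ψ)).re)
      ≤ 2 * N * (N - 1) * t * (ip Ψ Ψ).re := by
  have hN : 1 ≤ N := Nat.pos_of_ne_zero (fun h => by subst h; exact i0.elim0)
  set n2 : ℝ := (ip Ψ Ψ).re with hn2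
  have hn : ip Ψ Ψ = ((n2 : ℝ) : ℂ) := by
    apply Complex.ext
    · simp [hn2]
    · rw [ip_self]
      exact Complex.ofReal_im _
  have hn0 : 0 ≤ n2 := ip_self_re_nonneg Ψ
  set R : Fin N → Fin N → ℝ := fun i k => (ip Ψ (pairOp P i k Ψ)).re with hRdef
  have hR : ∀ i k : Fin N, i ≠ k → ip Ψ (pairOp P i k Ψ) = ((R i k : ℝ) : ℂ) := by
    intro i k hik
    apply Complex.ext
    · simp [hRdef]
    · simp [(pairOp_nonneg hP.herm hP.idem i k hik Ψ).2]
  have hR0 : ∀ i k : Fin N, i ≠ k → 0 ≤ R i k :=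
    fun i k hik => (pairOp_nonneg hP.herm hP.idem i k hik Ψ).1
  -- the total energy of the trial vectors
  have hS : ∑ a, ∑ b, ip (dG a b Ψ) (ham P (dG a b Ψ)) = (N : ℂ) * ∑ i, ∑ k,
      if i < k then ∑ m, ∑ a, ∑ b, ip (eop i0 a b Ψ) (pairOp P i k (eop m a b Ψ))
      else 0 := by
    simp only [energy_expand hP i0 hΨ, ← Finset.mul_sum]
    congr 1
    rw [sum_ab_comm]
    refine Finset.sum_congr rfl fun i _ => ?_
    rw [sum_ab_comm]
    refine Finset.sum_congr rfl fun k _ => ?_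
    rw [sum_ab_ite]
    by_cases hik : i < k
    · rw [if_pos hik, if_pos hik, sum_ab_comm]
    · rw [if_neg hik, if_neg hik]
  -- bound of each pair term
  have hpair : ∀ i k : Fin N, i < k →
      (∑ m, ∑ a, ∑ b, ip (eop i0 a b Ψ) (pairOp P i k (eop m a b Ψ))).re
        ≤ ((Q : ℝ) + 2 - N) * R i k + (if i = i0 then 2 * t * n2 else 0) := by
    intro i k hik
    have hki0 : k ≠ i0 := fun h => absurd (h ▸ hik) (not_lt.mpr (hmin i))
    have hcoef : (0 : ℝ) ≤ (Q : ℝ) + 2 - N := by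
      have : (N : ℝ) ≤ (Q : ℝ) + 2 := by exact_mod_cast hNQ
      linarith
    by_cases hi : i = i0
    · subst hi
      rw [slot_sum_on hP i k hki0 hΨ, if_pos rfl, hn]
      have hsum : (∑ m : Fin N, if m = i ∨ m = k then (0 : ℂ) else ip Ψ (pairOp P m k Ψ))
          = ((∑ m : Fin N, if m = i ∨ m = k then (0 : ℝ) else R m k : ℝ) : ℂ) := by
        rw [Complex.ofReal_sum]
        refine Finset.sum_congr rfl fun m _ => ?_
        by_cases hm : m = i ∨ m = k
        · rw [if_pos hm, if_pos hm, Complex.ofReal_zero]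
        · rw [if_neg hm, if_neg hm, hR m k (fun h => hm (Or.inr h))]
      rw [hsum]
      have hre : (2 * (t : ℂ) * ((n2 : ℝ) : ℂ)
          - ((∑ m : Fin N, if m = i ∨ m = k then (0 : ℝ) else R m k : ℝ) : ℂ)).re
          = 2 * t * n2 - ∑ m : Fin N, if m = i ∨ m = k then (0 : ℝ) else R m k := by
        have : (2 * (t : ℂ) * ((n2 : ℝ) : ℂ)
            - ((∑ m : Fin N, if m = i ∨ m = k then (0 : ℝ) else R m k : ℝ) : ℂ))
            = ((2 * t * n2 - ∑ m : Fin N, if m = i ∨ m = k then (0 : ℝ) else R m k : ℝ) : ℂ) := by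
          push_cast
          ring
        rw [this, Complex.ofReal_re]
      rw [hre]
      have hpos : 0 ≤ ∑ m : Fin N, if m = i ∨ m = k then (0 : ℝ) else R m k := by
        refine Finset.sum_nonneg fun m _ => ?_
        by_cases hm : m = i ∨ m = k
        · rw [if_pos hm]
        · rw [if_neg hm]
          exact hR0 m k (fun h => hm (Or.inr h))
      have h1 : 0 ≤ ((Q : ℝ) + 2 - N) * R i k := mul_nonneg hcoef (hR0 i k (ne_of_lt hik))
      linarith
    · rw [slot_sum_off hP i0 i k hi hki0 (ne_of_lt hik) hΨ, if_neg hi, hR i k (ne_of_lt hik)]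
      have : ((Q : ℂ) + 2 - (N : ℂ)) * ((R i k : ℝ) : ℂ)
          = (((Q : ℝ) + 2 - N) * R i k : ℝ) := by
        push_cast
        ring
      rw [this, Complex.ofReal_re, add_zero]
  -- the energy of Ψ
  have hEn : ∑ i : Fin N, ∑ k : Fin N, (if i < k then R i k else 0) = E0 * n2 := by
    have h1 : ip Ψ (ham P Ψ) = ((E0 * n2 : ℝ) : ℂ) := by
      rw [hE, ip_smul_right, hn]
      push_cast
      ring
    have h2 := energy_pairs P Ψ
    rw [h1] at h2
    have h3 : (∑ i : Fin N, ∑ k : Fin N, if i < k then ip Ψ (pairOp P i k Ψ) else 0)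
        = ((∑ i : Fin N, ∑ k : Fin N, (if i < k then R i k else 0) : ℝ) : ℂ) := by
      rw [Complex.ofReal_sum]
      refine Finset.sum_congr rfl fun i _ => ?_
      rw [Complex.ofReal_sum]
      refine Finset.sum_congr rfl fun k _ => ?_
      by_cases hik : i < k
      · rw [if_pos hik, if_pos hik, hR i k (ne_of_lt hik)]
      · rw [if_neg hik, if_neg hik, Complex.ofReal_zero]
    rw [h3] at h2
    exact_mod_cast h2.symm
  -- number of pairs containing i0
  have hcount : ∑ i : Fin N, ∑ k : Fin N,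
      (if i < k then (if i = i0 then 2 * t * n2 else 0) else 0)
        = ((N : ℝ) - 1) * (2 * t * n2) := by
    have h1 : ∀ i : Fin N, ∑ k : Fin N,
        (if i < k then (if i = i0 then 2 * t * n2 else 0) else 0)
          = if i = i0 then ((N : ℝ) - 1) * (2 * t * n2) else 0 := by
      intro i
      by_cases hi : i = i0
      · subst hi
        simp only [if_true]
        rw [Finset.sum_ite, Finset.sum_const, Finset.sum_const_zero, add_zero]
        have hc : (Finset.filter (fun k : Fin N => i < k) Finset.univ).card = N - 1 := by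
          have : Finset.filter (fun k : Fin N => i < k) Finset.univ
              = Finset.univ \ {i} := by
            ext k
            simp only [Finset.mem_filter, Finset.mem_univ, true_and, Finset.mem_sdiff,
              Finset.mem_singleton]
            constructor
            · intro h
              exact ne_of_gt h
            · intro h
              exact lt_of_le_of_ne (hmin k) (Ne.symm h)
          rw [this, Finset.card_sdiff_of_subset (Finset.subset_univ _), Finset.card_univ,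
            Fintype.card_fin, Finset.card_singleton]
        rw [hc, nsmul_eq_mul, Nat.cast_sub hN]
        push_cast
        ring
      · simp [hi]
    simp only [h1]
    rw [Finset.sum_ite_eq' Finset.univ i0, if_pos (Finset.mem_univ i0)]
  -- assemble
  have hSre : (∑ a, ∑ b, ip (dG a b Ψ) (ham P (dG a b Ψ))).re
      ≤ N * (((Q : ℝ) + 2 - N) * (E0 * n2) + ((N : ℝ) - 1) * (2 * t * n2)) := by
    rw [hS]
    have hcast : ((N : ℂ) * ∑ i, ∑ k,
        if i < k then ∑ m, ∑ a, ∑ b, ip (eop i0 a b Ψ) (pairOp P i k (eop m a b Ψ))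
        else 0).re = N * ∑ i : Fin N, ∑ k : Fin N,
          (if i < k then
            (∑ m, ∑ a, ∑ b, ip (eop i0 a b Ψ) (pairOp P i k (eop m a b Ψ))).re else 0) := by
      rw [← Complex.ofReal_natCast, Complex.re_ofReal_mul, Complex.re_sum]
      congr 1
      refine Finset.sum_congr rfl fun i _ => ?_
      rw [Complex.re_sum]
      refine Finset.sum_congr rfl fun k _ => ?_
      by_cases hik : i < k
      · rw [if_pos hik, if_pos hik]
      · rw [if_neg hik, if_neg hik, Complex.zero_re]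
    rw [hcast]
    refine mul_le_mul_of_nonneg_left ?_ (Nat.cast_nonneg N)
    calc ∑ i : Fin N, ∑ k : Fin N, (if i < k then
            (∑ m, ∑ a, ∑ b, ip (eop i0 a b Ψ) (pairOp P i k (eop m a b Ψ))).re else 0)
        ≤ ∑ i : Fin N, ∑ k : Fin N, (((Q : ℝ) + 2 - N) * (if i < k then R i k else 0)
            + (if i < k then (if i = i0 then 2 * t * n2 else 0) else 0)) := by
          refine Finset.sum_le_sum fun i _ => Finset.sum_le_sum fun k _ => ?_
          by_cases hik : i < k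
          · rw [if_pos hik, if_pos hik, if_pos hik]
            exact hpair i k hik
          · rw [if_neg hik, if_neg hik, if_neg hik]
            simp
      _ = ((Q : ℝ) + 2 - N) * (E0 * n2) + ((N : ℝ) - 1) * (2 * t * n2) := by
          simp only [Finset.sum_add_distrib, ← Finset.mul_sum]
          rw [hEn, hcount]
  have hnorm : (∑ a, ∑ b, ip (dG a b Ψ) (dG a b Ψ)).re = N * ((Q : ℝ) + 2 - N) * n2 := by
    rw [norm_rule i0 hΨ, hn]
    have : (N : ℂ) * ((Q : ℂ) + 2 - N) * ((n2 : ℝ) : ℂ)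
        = ((N * ((Q : ℝ) + 2 - N) * n2 : ℝ) : ℂ) := by
      push_cast
      ring
    rw [this, Complex.ofReal_re]
  have hsplit : ∑ a, ∑ b, ((ip (dG a b Ψ) (ham P (dG a b Ψ))).re
      - E0 * (ip (dG a b Ψ) (dG a b Ψ)).re)
      = (∑ a, ∑ b, ip (dG a b Ψ) (ham P (dG a b Ψ))).re
        - E0 * (∑ a, ∑ b, ip (dG a b Ψ) (dG a b Ψ)).re := by
    simp only [Complex.re_sum, Finset.sum_sub_distrib, Finset.mul_sum]
  rw [hsplit, hnorm]
  have : (N : ℝ) * (((Q : ℝ) + 2 - N) * (E0 * n2) + ((N : ℝ) - 1) * (2 * t * n2))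
      - E0 * (N * ((Q : ℝ) + 2 - N) * n2) = 2 * N * (N - 1) * t * n2 := by ring
  linarith

end Vale.Agent.Lib.P359
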