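import Vale.Agent.Lib.P359.ManyBasic

namespace Vale.Agent.Lib.P359

open Matrix

variable {N Q : ℕ}

/-- the exchange of the value at slot `i0` with a value from outside -/
private def SumRuleA_flip (i0 : Fin N) : Equiv.Perm (Orb Q × Cfg N Q) :=
  Function.Involutive.toPerm (fun p => (p.2 i0, Function.update p.2 i0 p.1)) (by
    rintro ⟨b, x⟩
    simp)

/-- reindexing a double sum over an outside value and a configuration -/
private theorem SumRuleA_reindex (i0 : Fin N) (K : Orb Q → Cfg N Q → ℂ) :
    ∑ b, ∑ x, K (x i0) (Function.update x i0 b) = ∑ c, ∑ z, K c z :=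
  calc ∑ b, ∑ x, K (x i0) (Function.update x i0 b)
      = ∑ p : Orb Q × Cfg N Q, K (p.2 i0) (Function.update p.2 i0 p.1) :=
        (Fintype.sum_prod_type' (fun b x => K (x i0) (Function.update x i0 b))).symm
    _ = ∑ p : Orb Q × Cfg N Q, K p.1 p.2 :=
        Equiv.sum_comp (SumRuleA_flip i0) (fun p : Orb Q × Cfg N Q => K p.1 p.2)
    _ = ∑ c, ∑ z, K c z := Fintype.sum_prod_type' K

/-- the one-body operator at slot `j` is the exchanged one-body operator at slot `i0` -/
private theorem SumRuleA_eop_swp {Ψ : Cfg N Q → ℂ} (hΨ : Antisym Ψ) (i0 j : Fin N)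
    (hj : j ≠ i0) (a b : Orb Q) : swp i0 j (eop i0 a b Ψ) = -eop j a b Ψ := by
  funext x
  have hupd : Function.update (fun l => x (Equiv.swap i0 j l)) i0 b
      = fun l => Function.update x j b (Equiv.swap i0 j l) := by
    funext l
    by_cases hl : l = i0
    · subst hl
      simp
    · rw [Function.update_of_ne hl]
      have hne : Equiv.swap i0 j l ≠ j := by
        intro h
        have h2 := congrArg (Equiv.swap i0 j) h
        rw [Equiv.swap_apply_self, Equiv.swap_apply_right] at h2
        exact hl h2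
      rw [Function.update_of_ne hne]
  have hsw := congrFun (antisym_swp hΨ i0 j (Ne.symm hj)) (Function.update x j b)
  show eop i0 a b Ψ (fun l => x (Equiv.swap i0 j l)) = -eop j a b Ψ x
  unfold eop
  simp only [Equiv.swap_apply_left]
  rw [hupd]
  by_cases hx : x j = a
  · rw [if_pos hx, if_pos hx]
    exact hsw
  · rw [if_neg hx, if_neg hx, neg_zero]

/-- reduction of `dΓ(E_ab)` to a single slot against antisymmetric vectors -/
theorem K0 {Ψ Φ : Cfg N Q → ℂ} (hΨ : Antisym Ψ) (hΦ : Antisym Φ) (i0 : Fin N) (a b : Orb Q) :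
    ip (dG a b Ψ) Φ = (N : ℂ) * ip (eop i0 a b Ψ) Φ := by
  have hterm : ∀ j : Fin N, ip (eop j a b Ψ) Φ = ip (eop i0 a b Ψ) Φ := by
    intro j
    by_cases hj : j = i0
    · rw [hj]
    · have e1 : eop j a b Ψ = (-1 : ℂ) • swp i0 j (eop i0 a b Ψ) := by
        rw [SumRuleA_eop_swp hΨ i0 j hj a b]
        simp
      rw [e1, ip_smul_left, ip_swp, antisym_swp hΦ i0 j (Ne.symm hj), ip_neg_right]
      simp
  have hdG : dG a b Ψ = fun x => ∑ j ∈ Finset.univ, eop j a b Ψ x := rfl
  rw [hdG, ip_sum_left]
  simp only [hterm]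
  rw [Finset.sum_const, Finset.card_univ, Fintype.card_fin, nsmul_eq_mul]

/-- `sum_ab (E^i_ab)^* E^i_ab = (Q + 1)` -/
theorem K1 (i0 : Fin N) (Ψ Φ : Cfg N Q → ℂ) :
    ∑ a, ∑ b, ip (eop i0 a b Ψ) (eop i0 a b Φ) = ((Q : ℂ) + 1) * ip Ψ Φ := by
  have h1 : ∀ b : Orb Q, ∑ a, ip (eop i0 a b Ψ) (eop i0 a b Φ)
      = ∑ x, star (Ψ (Function.update x i0 b)) * Φ (Function.update x i0 b) := by
    intro b
    unfold ip eop
    rw [Finset.sum_comm]
    refine Finset.sum_congr rfl (fun x _ => ?_)
    rw [Finset.sum_eq_single (x i0)]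
    · simp
    · intro a _ ha
      rw [if_neg (Ne.symm ha)]
      simp
    · intro h
      exact absurd (Finset.mem_univ _) h
  have h2 : ∑ b, ∑ x, star (Ψ (Function.update x i0 b)) * Φ (Function.update x i0 b)
      = ∑ _c : Orb Q, ∑ z, star (Ψ z) * Φ z :=
    SumRuleA_reindex i0 (fun _ z => star (Ψ z) * Φ z)
  rw [Finset.sum_comm]
  simp only [h1]
  rw [h2, Finset.sum_const, Finset.card_univ, Fintype.card_fin, nsmul_eq_mul]
  unfold ip
  push_cast
  rfl

/-- `sum_ab (E^i_ab)^* E^m_ab` is the exchange of `i` and `m` -/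
theorem K2 (i0 m : Fin N) (hm : m ≠ i0) (Ψ Φ : Cfg N Q → ℂ) :
    ∑ a, ∑ b, ip (eop i0 a b Ψ) (eop m a b Φ) = ip Ψ (swp i0 m Φ) := by
  have h1 : ∀ b : Orb Q, ∑ a, ip (eop i0 a b Ψ) (eop m a b Φ)
      = ∑ x, (if x m = x i0 then star (Ψ (Function.update x i0 b))
          * Φ (fun l => Function.update x i0 b (Equiv.swap i0 m l)) else 0) := by
    intro b
    unfold ip eop
    rw [Finset.sum_comm]
    refine Finset.sum_congr rfl (fun x _ => ?_)
    rw [Finset.sum_eq_single (x i0)]
    · by_cases hx : x m = x i0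
      · have hupd : Function.update x m b
            = fun l => Function.update x i0 b (Equiv.swap i0 m l) := by
          funext l
          by_cases hl : l = i0
          · subst hl
            rw [Equiv.swap_apply_left, Function.update_of_ne hm, Function.update_of_ne (Ne.symm hm),
              hx]
          · by_cases hl2 : l = m
            · subst hl2
              simp
            · rw [Equiv.swap_apply_of_ne_of_ne hl hl2, Function.update_of_ne hl,
                Function.update_of_ne hl2]
        rw [if_pos rfl, if_pos hx, if_pos hx, hupd]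
      · rw [if_neg hx, if_neg hx, mul_zero]
    · intro a _ ha
      rw [if_neg (Ne.symm ha)]
      simp
    · intro h
      exact absurd (Finset.mem_univ _) h
  have h2 : ∑ b, ∑ x, (if x m = x i0 then star (Ψ (Function.update x i0 b))
        * Φ (fun l => Function.update x i0 b (Equiv.swap i0 m l)) else 0)
      = ∑ c : Orb Q, ∑ z, (if z m = c then star (Ψ z) * Φ (fun l => z (Equiv.swap i0 m l))
          else 0) := by
    have h3 := SumRuleA_reindex i0
      (fun c z => if z m = c then star (Ψ z) * Φ (fun l => z (Equiv.swap i0 m l)) else 0)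
    simp only [Function.update_of_ne hm] at h3
    exact h3
  rw [Finset.sum_comm]
  simp only [h1]
  rw [h2, Finset.sum_comm]
  simp only [Finset.sum_ite_eq, Finset.mem_univ, if_true]
  rfl

/-- a pair operator not touching slot `i0` commutes with `E^i0_ab` -/
theorem K3 {P : Matrix (Pair Q) (Pair Q) ℂ} (herm : Pᴴ = P) (i0 i k : Fin N) (hi : i ≠ i0)
    (hk : k ≠ i0) (hik : i ≠ k) (a b : Orb Q) (Ψ χ : Cfg N Q → ℂ) :
    ip (eop i0 a b Ψ) (pairOp P i k χ) = ip (eop i0 a b (pairOp P i k Ψ)) χ := by
  have e : pairOp P i k (eop i0 a b Ψ) = eop i0 a b (pairOp P i k Ψ) := by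
    funext x
    unfold pairOp eop
    have h1 : ∀ a' b' : Orb Q,
        Function.update (Function.update x i a') k b' i0 = x i0 := by
      intro a' b'
      rw [Function.update_of_ne (Ne.symm hk), Function.update_of_ne (Ne.symm hi)]
    have h2 : ∀ a' b' : Orb Q,
        Function.update (Function.update (Function.update x i a') k b') i0 b
          = Function.update (Function.update (Function.update x i0 b) i a') k b' := by
      intro a' b'
      rw [Function.update_comm hk, Function.update_comm hi]
    simp only [h1, h2]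
    by_cases hx : x i0 = a
    · simp only [if_pos hx]
      rw [Function.update_of_ne hi, Function.update_of_ne hk]
    · simp only [if_neg hx, mul_zero, Finset.sum_const_zero]
  rw [← pairOp_symm herm i k hik, e]

end Vale.Agent.Lib.P359
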